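import Vale.Agent.Lib.P091.Defs

/-!
# Basic facts: the Young function `phi`, Fourier sums, the class `L log L`

Helper file for problem P091.
-/

namespace Vale.Agent.Lib.P091

open MeasureTheory AddCircle Filter Topology
open scoped ENNReal

/-- The Young function `Φ(t) = t log (2 + t)`. -/
noncomputable def phi (t : ℝ) : ℝ := t * Real.log (2 + t)

lemma phi_zero : phi 0 = 0 := by simp [phi]

lemma log_two_add_pos {t : ℝ} (ht : 0 ≤ t) : 0 < Real.log (2 + t) :=
  Real.log_pos (by linarith)

lemma half_le_log_two_add {t : ℝ} (ht : 0 ≤ t) : 1 / 2 ≤ Real.log (2 + t) := by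
  have h1 : Real.log 2 ≤ Real.log (2 + t) := Real.log_le_log (by norm_num) (by linarith)
  have h2 : (0.6931471803 : ℝ) < Real.log 2 := Real.log_two_gt_d9
  linarith

lemma phi_nonneg {t : ℝ} (ht : 0 ≤ t) : 0 ≤ phi t :=
  mul_nonneg ht (log_two_add_pos ht).le

lemma half_mul_le_phi {t : ℝ} (ht : 0 ≤ t) : t / 2 ≤ phi t := by
  have := half_le_log_two_add ht
  unfold phi
  nlinarith

lemma phi_le_add_sq {t : ℝ} (ht : 0 ≤ t) : phi t ≤ t + t ^ 2 := by
  have h : Real.log (2 + t) ≤ 1 + t := by
    have := Real.log_le_sub_one_of_pos (show (0 : ℝ) < 2 + t by linarith)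
    linarith
  unfold phi
  nlinarith

lemma phi_mono {s t : ℝ} (hs : 0 ≤ s) (hst : s ≤ t) : phi s ≤ phi t := by
  unfold phi
  have h1 : Real.log (2 + s) ≤ Real.log (2 + t) := Real.log_le_log (by linarith) (by linarith)
  have h2 := log_two_add_pos hs
  have ht : 0 ≤ t := hs.trans hst
  nlinarith

lemma measurable_phi : Measurable phi := by
  unfold phi
  exact measurable_id.mul (Real.measurable_log.comp (measurable_const.add measurable_id))

lemma convexOn_phi : ConvexOn ℝ (Set.Ici (0 : ℝ)) phi := by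
  have h1 : ConvexOn ℝ (Set.Ici (0 : ℝ)) (fun t : ℝ => (2 + t) * Real.log (2 + t)) := by
    have h := Real.convexOn_mul_log.translate_right (2 : ℝ)
    refine h.subset ?_ (convex_Ici 0)
    intro t ht
    simp only [Set.mem_preimage, Set.mem_Ici] at ht ⊢
    linarith
  have h2 : ConvexOn ℝ (Set.Ici (0 : ℝ)) (fun t : ℝ => -(2 * Real.log (2 + t))) := by
    have h := (strictConcaveOn_log_Ioi.concaveOn.translate_right (2 : ℝ)).smul
      (show (0 : ℝ) ≤ 2 by norm_num)
    have h' := h.neg
    refine h'.subset ?_ (convex_Ici 0)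
    intro t ht
    simp only [Set.mem_preimage, Set.mem_Ioi, Set.mem_Ici] at ht ⊢
    linarith
  have h3 : phi = fun t : ℝ => (2 + t) * Real.log (2 + t) + -(2 * Real.log (2 + t)) := by
    funext t
    unfold phi
    ring
  rw [h3]
  exact h1.add h2

lemma phi_mul_le {c t : ℝ} (hc : 1 ≤ c) (ht : 0 ≤ t) :
    phi (c * t) ≤ c * (1 + 2 * Real.log c) * phi t := by
  unfold phi
  have hc0 : 0 < c := by linarith
  have h1 : Real.log (2 + c * t) ≤ Real.log c + Real.log (2 + t) := by
    rw [← Real.log_mul hc0.ne' (by linarith)]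
    apply Real.log_le_log (by positivity)
    nlinarith
  have h2 := half_le_log_two_add ht
  have h3 : 0 ≤ Real.log c := Real.log_nonneg hc
  have h4 : Real.log c + Real.log (2 + t) ≤ (1 + 2 * Real.log c) * Real.log (2 + t) := by
    nlinarith
  have h5 : 0 ≤ c * t := by positivity
  calc c * t * Real.log (2 + c * t) ≤ c * t * ((1 + 2 * Real.log c) * Real.log (2 + t)) :=
        mul_le_mul_of_nonneg_left (h1.trans h4) h5
    _ = c * (1 + 2 * Real.log c) * (t * Real.log (2 + t)) := by ring

lemma phi_scale_le {c t : ℝ} (hc : 0 ≤ c) (ht : 0 ≤ t) :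
    phi (c * t) ≤ max c 1 * (1 + 2 * Real.log (max c 1)) * phi t :=
  (phi_mono (mul_nonneg hc ht) (mul_le_mul_of_nonneg_right (le_max_left c 1) ht)).trans
    (phi_mul_le (le_max_right c 1) ht)

/-- Midpoint convexity in the form used for the triangle inequality. -/
lemma phi_add_le {a b : ℝ} (ha : 0 ≤ a) (hb : 0 ≤ b) :
    phi (a + b) ≤ (1 / 2) * phi (2 * a) + (1 / 2) * phi (2 * b) := by
  have h := convexOn_phi.2 (show 2 * a ∈ Set.Ici (0 : ℝ) by simp; linarith)
    (show 2 * b ∈ Set.Ici (0 : ℝ) by simp; linarith)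
    (show (0 : ℝ) ≤ 1 / 2 by norm_num) (show (0 : ℝ) ≤ 1 / 2 by norm_num) (by norm_num)
  simp only [smul_eq_mul] at h
  have e : (1 : ℝ) / 2 * (2 * a) + 1 / 2 * (2 * b) = a + b := by ring
  rw [e] at h
  exact h

/-- Jensen for sub-probability weights. -/
lemma phi_sum_le {ι : Type*} (s : Finset ι) (w u : ι → ℝ) (hw : ∀ i ∈ s, 0 ≤ w i)
    (hu : ∀ i ∈ s, 0 ≤ u i) (hsum : ∑ i ∈ s, w i ≤ 1) :
    phi (∑ i ∈ s, w i * u i) ≤ ∑ i ∈ s, w i * phi (u i) := by
  classical
  have h := convexOn_phi.map_sum_le (t := Finset.insertNone s)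
    (w := fun o => Option.elim o (1 - ∑ i ∈ s, w i) w)
    (p := fun o => Option.elim o 0 u) ?_ ?_ ?_
  · simp only [Finset.sum_insertNone, Option.elim_none, Option.elim_some, smul_eq_mul, mul_zero,
      zero_add, phi_zero] at h
    exact h
  · intro o ho
    cases o with
    | none => simp; linarith
    | some i => exact hw i (by simpa using ho)
  · simp [Finset.sum_insertNone]
  · intro o ho
    cases o with
    | none => simp
    | some i => simpa using hu i (by simpa using ho)

section FourierSum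

variable {T : ℝ} [hT : Fact (0 < T)]

lemma norm_fourierCoeff_le (f : AddCircle T → ℂ) (n : ℤ) :
    ‖fourierCoeff f n‖ ≤ ∫ x, ‖f x‖ ∂haarAddCircle := by
  unfold fourierCoeff
  refine (norm_integral_le_integral_norm _).trans (le_of_eq ?_)
  congr 1
  funext t
  rw [norm_smul, fourier_apply, Circle.norm_coe, one_mul]

lemma norm_fourierSum_le (N : ℕ) (f : AddCircle T → ℂ) (x : AddCircle T) :
    ‖fourierSum N f x‖ ≤ (2 * N + 1) * ∫ x, ‖f x‖ ∂haarAddCircle := by
  unfold fourierSum
  refine (norm_sum_le _ _).trans ?_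
  have h : ∀ n ∈ Finset.Icc (-(N : ℤ)) (N : ℤ), ‖fourierCoeff f n * fourier n x‖ ≤
      ∫ x, ‖f x‖ ∂haarAddCircle := by
    intro n _
    rw [norm_mul, fourier_apply, Circle.norm_coe, mul_one]
    exact norm_fourierCoeff_le f n
  refine (Finset.sum_le_card_nsmul _ _ _ h).trans (le_of_eq ?_)
  rw [Int.card_Icc, nsmul_eq_mul]
  congr 1
  have : ((N : ℤ) + 1 - -(N : ℤ)).toNat = 2 * N + 1 := by omega
  rw [this]
  push_cast
  ring

lemma fourierSum_add (N : ℕ) {f g : AddCircle T → ℂ} (hf : Integrable f haarAddCircle)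
    (hg : Integrable g haarAddCircle) (x : AddCircle T) :
    fourierSum N (f + g) x = fourierSum N f x + fourierSum N g x := by
  unfold fourierSum
  rw [fourierCoeff.add hf hg, ← Finset.sum_add_distrib]
  refine Finset.sum_congr rfl fun n _ => ?_
  rw [Pi.add_apply, add_mul]

lemma fourierSum_smul (N : ℕ) (c : ℂ) (f : AddCircle T → ℂ) (x : AddCircle T) :
    fourierSum N (c • f) x = c * fourierSum N f x := by
  unfold fourierSum
  rw [Finset.mul_sum]
  refine Finset.sum_congr rfl fun n _ => ?_
  rw [fourierCoeff.const_smul, smul_eq_mul, mul_assoc]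

lemma fourierSum_neg (N : ℕ) (f : AddCircle T → ℂ) (x : AddCircle T) :
    fourierSum N (-f) x = -fourierSum N f x := by
  have h : -f = (-1 : ℂ) • f := by simp
  rw [h, fourierSum_smul]
  ring

lemma fourierSum_sub (N : ℕ) {f g : AddCircle T → ℂ} (hf : Integrable f haarAddCircle)
    (hg : Integrable g haarAddCircle) (x : AddCircle T) :
    fourierSum N (f - g) x = fourierSum N f x - fourierSum N g x := by
  rw [sub_eq_add_neg, fourierSum_add N hf hg.neg, fourierSum_neg, ← sub_eq_add_neg]

lemma fourierSum_congr_ae (N : ℕ) {f g : AddCircle T → ℂ} (h : f =ᵐ[haarAddCircle] g) :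
    fourierSum N f = fourierSum N g := by
  funext x
  unfold fourierSum
  rw [fourierCoeff_congr_ae h]

lemma continuous_fourierSum (N : ℕ) (f : AddCircle T → ℂ) : Continuous (fourierSum N f) := by
  unfold fourierSum
  exact continuous_finsetSum _ fun n _ => continuous_const.mul (map_continuous (fourier n))

lemma fourierSum_finset_sum (N : ℕ) {ι : Type*} (s : Finset ι) (f : ι → AddCircle T → ℂ)
    (hf : ∀ i ∈ s, Integrable (f i) haarAddCircle) (x : AddCircle T) :
    fourierSum N (∑ i ∈ s, f i) x = ∑ i ∈ s, fourierSum N (f i) x := by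
  unfold fourierSum
  rw [fourierCoeff.sum s f hf, Finset.sum_comm]
  refine Finset.sum_congr rfl fun n _ => ?_
  rw [Finset.sum_apply, Finset.sum_mul]

omit hT in
lemma fourier_sub_arg (n : ℤ) (x t : AddCircle T) :
    fourier n (x - t) = fourier n x * fourier (-n) t := by
  simp only [fourier_apply, smul_sub, neg_smul]
  rw [sub_eq_add_neg, AddCircle.toCircle_add, Circle.coe_mul]

lemma fourierCoeff_translate (f : AddCircle T → ℂ) (t : AddCircle T) (n : ℤ) :
    fourierCoeff (fun x => f (x - t)) n = fourier (-n) t * fourierCoeff f n := by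
  unfold fourierCoeff
  have h := integral_sub_right_eq_self (μ := (haarAddCircle : Measure (AddCircle T)))
    (fun y => fourier (-n) (y + t) • f y) t
  simp only [sub_add_cancel] at h
  rw [h, ← integral_const_mul]
  congr 1
  funext y
  have h2 : fourier (-n) (y + t) = fourier (-n) y * fourier (-n) t := by
    have := fourier_sub_arg (T := T) (-n) y (-t)
    simpa [sub_neg_eq_add] using this
  rw [h2, smul_eq_mul, smul_eq_mul]
  ring

lemma fourierSum_translate (N : ℕ) (f : AddCircle T → ℂ) (t x : AddCircle T) :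
    fourierSum N (fun y => f (y - t)) x = fourierSum N f (x - t) := by
  unfold fourierSum
  refine Finset.sum_congr rfl fun n _ => ?_
  rw [fourierCoeff_translate, fourier_sub_arg]
  ring

/-- Fourier coefficients of a trigonometric polynomial. -/
lemma fourierCoeff_trigPoly (s : Finset ℤ) (c : ℤ → ℂ) (m : ℤ) :
    fourierCoeff (fun x : AddCircle T => ∑ n ∈ s, c n * fourier n x) m =
      if m ∈ s then c m else 0 := by
  have h1 : (fun x : AddCircle T => ∑ n ∈ s, c n * fourier n x) =
      ∑ n ∈ s, (c n) • (fun x : AddCircle T => fourier n x) := by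
    funext x
    simp [Finset.sum_apply]
  rw [h1, fourierCoeff.sum]
  · rw [Finset.sum_apply]
    have h2 : ∀ n ∈ s, fourierCoeff ((c n) • (fun x : AddCircle T => fourier n x)) m =
        if n = m then c n else 0 := by
      intro n _
      rw [fourierCoeff.const_smul]
      have h3 := congrFun (fourierCoeff_fourier (T := T) n) m
      rw [h3, Pi.single_apply]
      split_ifs with h4 h5 h5
      · simp
      · exact absurd h4.symm h5
      · exact absurd h5.symm h4
      · simp
    rw [Finset.sum_congr rfl h2, Finset.sum_ite_eq' s m c]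
  · intro n _
    exact ((map_continuous (fourier n)).integrable_of_hasCompactSupport
      (HasCompactSupport.of_compactSpace _)).smul (c n)

/-- The Fourier sums of a trigonometric polynomial are eventually equal to it. -/
lemma fourierSum_trigPoly {N : ℕ} (s : Finset ℤ) (c : ℤ → ℂ)
    (hs : s ⊆ Finset.Icc (-(N : ℤ)) (N : ℤ)) (x : AddCircle T) :
    fourierSum N (fun x : AddCircle T => ∑ n ∈ s, c n * fourier n x) x =
      ∑ n ∈ s, c n * fourier n x := by
  unfold fourierSum
  simp only [fourierCoeff_trigPoly, ite_mul, zero_mul]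
  rw [Finset.sum_ite_mem, Finset.inter_eq_right.mpr hs]

lemma memLp_trigPoly (s : Finset ℤ) (c : ℤ → ℂ) (p : ℝ≥0∞) :
    MemLp (fun x : AddCircle T => ∑ n ∈ s, c n * fourier n x) p haarAddCircle := by
  have hcont : Continuous (fun x : AddCircle T => ∑ n ∈ s, c n * fourier n x) :=
    continuous_finsetSum _ fun n _ => continuous_const.mul (map_continuous (fourier n))
  obtain ⟨C, hC⟩ := (isCompact_univ (X := AddCircle T)).exists_bound_of_continuousOn
    hcont.continuousOn
  exact MemLp.of_bound hcont.aestronglyMeasurable C (ae_of_all _ fun x => hC x (Set.mem_univ x))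

/-- Trigonometric polynomials are dense in `L²` of the circle. -/
lemma exists_trigPoly_L2_approx {u : AddCircle T → ℂ} (hu : MemLp u 2 haarAddCircle) {η : ℝ}
    (hη : 0 < η) :
    ∃ (s : Finset ℤ) (c : ℤ → ℂ),
      ∫ x, ‖u x - ∑ n ∈ s, c n * fourier n x‖ ^ 2 ∂haarAddCircle < η := by
  classical
  set U : Lp ℂ 2 (haarAddCircle : Measure (AddCircle T)) := hu.toLp u with hUdef
  have hdense := span_fourierLp_closure_eq_top (T := T) (p := 2) (by norm_num)
  have hU : U ∈ closure ((Submodule.span ℂ (Set.range (fourierLp (T := T) 2)) : Set _)) := by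
    rw [← Submodule.topologicalClosure_coe, hdense]
    trivial
  obtain ⟨q, hq, hdist⟩ := Metric.mem_closure_iff.mp hU (Real.sqrt η) (Real.sqrt_pos.mpr hη)
  obtain ⟨c, rfl⟩ := Finsupp.mem_span_range_iff_exists_finsupp.mp hq
  refine ⟨c.support, c, ?_⟩
  have hq_ae : ⇑(c.sum fun n a => a • fourierLp (T := T) 2 n) =ᵐ[haarAddCircle]
      fun x => ∑ n ∈ c.support, c n * fourier n x := by
    rw [Finsupp.sum]
    refine (Lp.coeFn_finsetSum _ _).trans ?_
    have h1 : ∀ n ∈ c.support, ⇑(c n • fourierLp (T := T) 2 n) =ᵐ[haarAddCircle]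
        fun x => c n * fourier n x := by
      intro n _
      filter_upwards [Lp.coeFn_smul (c n) (fourierLp (T := T) 2 n), coeFn_fourierLp (T := T) 2 n]
        with x hx1 hx2
      rw [hx1, Pi.smul_apply, hx2, smul_eq_mul]
    have h2 : ∀ᵐ x ∂(haarAddCircle : Measure (AddCircle T)), ∀ n ∈ c.support,
        (c n • fourierLp (T := T) 2 n) x = c n * fourier n x :=
      (Filter.eventually_all_finset c.support).mpr h1
    filter_upwards [h2] with x hx
    rw [Finset.sum_apply]
    exact Finset.sum_congr rfl hx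
  set p : AddCircle T → ℂ := fun x => ∑ n ∈ c.support, c n * fourier n x with hpdef
  have hsub : ⇑(U - c.sum fun n a => a • fourierLp (T := T) 2 n) =ᵐ[haarAddCircle] u - p := by
    filter_upwards [Lp.coeFn_sub U (c.sum fun n a => a • fourierLp (T := T) 2 n), hq_ae,
      hu.coeFn_toLp] with x hx1 hx2 hx3
    rw [hx1, Pi.sub_apply, Pi.sub_apply, hx2, hx3]
  have hmem : MemLp (u - p) 2 haarAddCircle := hu.sub (memLp_trigPoly _ _ _)
  rw [dist_eq_norm, Lp.norm_def, eLpNorm_congr_ae hsub,
    hmem.eLpNorm_eq_integral_rpow_norm (by norm_num) (by norm_num)] at hdist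
  have hI : 0 ≤ ∫ a, ‖(u - p) a‖ ^ (2 : ℝ≥0∞).toReal ∂(haarAddCircle : Measure (AddCircle T)) :=
    integral_nonneg fun a => by positivity
  rw [ENNReal.toReal_ofReal (by positivity)] at hdist
  have h2 : (2 : ℝ≥0∞).toReal = 2 := by simp
  rw [h2] at hdist hI
  have h3 : (∫ a, ‖(u - p) a‖ ^ (2 : ℝ) ∂(haarAddCircle : Measure (AddCircle T))) < η := by
    have h4 : (∫ a, ‖(u - p) a‖ ^ (2 : ℝ) ∂(haarAddCircle : Measure (AddCircle T))) =
        ((∫ a, ‖(u - p) a‖ ^ (2 : ℝ) ∂(haarAddCircle : Measure (AddCircle T))) ^ (2 : ℝ)⁻¹)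
          ^ (2 : ℕ) := by
      rw [← Real.rpow_natCast, ← Real.rpow_mul hI]
      norm_num
    rw [h4]
    calc _ < (Real.sqrt η) ^ (2 : ℕ) := pow_lt_pow_left₀ hdist (by positivity) two_ne_zero
      _ = η := Real.sq_sqrt hη.le
  refine lt_of_eq_of_lt ?_ h3
  congr 1
  funext x
  rw [Real.rpow_two]
  rfl

end FourierSum

end Vale.Agent.Lib.P091
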