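import Vale.Agent.Lib.P091.Basic

/-!
# The class `L log L`: closure properties

Helper file for problem P091.
-/

namespace Vale.Agent.Lib.P091

open MeasureTheory AddCircle Filter Topology
open scoped ENNReal

variable {T : ℝ} [hT : Fact (0 < T)]

lemma memLlogL_iff {f : AddCircle T → ℂ} :
    MemLlogL f ↔ AEStronglyMeasurable f haarAddCircle ∧
      Integrable (fun x => phi ‖f x‖) haarAddCircle := Iff.rfl

lemma MemLlogL.integrable {f : AddCircle T → ℂ} (hf : MemLlogL f) :
    Integrable f haarAddCircle := by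
  have h2 := (memLlogL_iff.mp hf).2
  refine Integrable.mono' (h2.const_mul 2) hf.1 (ae_of_all _ fun x => ?_)
  have := half_mul_le_phi (norm_nonneg (f x))
  linarith

lemma aemeasurable_phi_comp {f : AddCircle T → ℂ} (hf : AEStronglyMeasurable f haarAddCircle)
    (c : ℝ) : AEStronglyMeasurable (fun x => phi (c * ‖f x‖)) haarAddCircle :=
  (measurable_phi.comp_aemeasurable (hf.norm.aemeasurable.const_mul c)).aestronglyMeasurable

lemma MemLlogL.integrable_phi_mul {f : AddCircle T → ℂ} (hf : MemLlogL f) {c : ℝ} (hc : 0 ≤ c) :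
    Integrable (fun x => phi (c * ‖f x‖)) haarAddCircle := by
  have h2 := (memLlogL_iff.mp hf).2
  refine Integrable.mono' (h2.const_mul (max c 1 * (1 + 2 * Real.log (max c 1))))
    (aemeasurable_phi_comp hf.1 c) (ae_of_all _ fun x => ?_)
  rw [Real.norm_of_nonneg (phi_nonneg (mul_nonneg hc (norm_nonneg _)))]
  exact phi_scale_le hc (norm_nonneg _)

lemma MemLlogL.integrable_phi_div {f : AddCircle T → ℂ} (hf : MemLlogL f) {κ : ℝ} (hκ : 0 < κ) :
    Integrable (fun x => phi (‖f x‖ / κ)) haarAddCircle := by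
  have h := hf.integrable_phi_mul (c := κ⁻¹) (inv_nonneg.mpr hκ.le)
  refine h.congr (ae_of_all _ fun x => ?_)
  simp only
  rw [div_eq_inv_mul]

/-- If `Φ(c |f|)` is integrable for some `c ≥ 1`, then `f ∈ L log L`. -/
lemma memLlogL_of_integrable_phi_mul {f : AddCircle T → ℂ}
    (hf : AEStronglyMeasurable f haarAddCircle) {c : ℝ} (hc : 1 ≤ c)
    (h : Integrable (fun x => phi (c * ‖f x‖)) haarAddCircle) : MemLlogL f := by
  refine memLlogL_iff.mpr ⟨hf, Integrable.mono' h ?_ (ae_of_all _ fun x => ?_)⟩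
  · have := aemeasurable_phi_comp hf 1
    simpa using this
  · rw [Real.norm_of_nonneg (phi_nonneg (norm_nonneg _))]
    refine phi_mono (norm_nonneg _) ?_
    have := norm_nonneg (f x)
    nlinarith

lemma MemLlogL.add {f g : AddCircle T → ℂ} (hf : MemLlogL f) (hg : MemLlogL g) :
    MemLlogL (f + g) := by
  refine memLlogL_iff.mpr ⟨hf.1.add hg.1, ?_⟩
  have h1 := (hf.integrable_phi_mul (c := 2) (by norm_num)).const_mul (1 / 2)
  have h2 := (hg.integrable_phi_mul (c := 2) (by norm_num)).const_mul (1 / 2)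
  refine Integrable.mono' (h1.add h2) ?_ (ae_of_all _ fun x => ?_)
  · have := aemeasurable_phi_comp (hf.1.add hg.1) 1
    simpa using this
  · rw [Real.norm_of_nonneg (phi_nonneg (norm_nonneg _))]
    exact (phi_mono (norm_nonneg _) (norm_add_le _ _)).trans
      (phi_add_le (norm_nonneg _) (norm_nonneg _))

lemma MemLlogL.neg {f : AddCircle T → ℂ} (hf : MemLlogL f) : MemLlogL (-f) := by
  refine memLlogL_iff.mpr ⟨hf.1.neg, ?_⟩
  simpa using (memLlogL_iff.mp hf).2

lemma MemLlogL.sub {f g : AddCircle T → ℂ} (hf : MemLlogL f) (hg : MemLlogL g) :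
    MemLlogL (f - g) := by
  rw [sub_eq_add_neg]
  exact hf.add hg.neg

lemma MemLlogL.const_smul {f : AddCircle T → ℂ} (hf : MemLlogL f) (c : ℂ) :
    MemLlogL (c • f) := by
  refine memLlogL_iff.mpr ⟨hf.1.const_smul c, ?_⟩
  have h := hf.integrable_phi_mul (c := ‖c‖) (norm_nonneg c)
  refine h.congr (ae_of_all _ fun x => ?_)
  simp only [Pi.smul_apply, norm_smul]

lemma memLlogL_of_bound {f : AddCircle T → ℂ} (hf : AEStronglyMeasurable f haarAddCircle)
    (C : ℝ) (hC : ∀ x, ‖f x‖ ≤ C) : MemLlogL f := by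
  refine memLlogL_iff.mpr ⟨hf, ?_⟩
  refine Integrable.mono' (integrable_const (phi C)) ?_ (ae_of_all _ fun x => ?_)
  · have := aemeasurable_phi_comp hf 1
    simpa using this
  · rw [Real.norm_of_nonneg (phi_nonneg (norm_nonneg _))]
    exact phi_mono (norm_nonneg _) (hC x)

lemma memLlogL_trigPoly (s : Finset ℤ) (c : ℤ → ℂ) :
    MemLlogL (fun x : AddCircle T => ∑ n ∈ s, c n * fourier n x) := by
  have hcont : Continuous (fun x : AddCircle T => ∑ n ∈ s, c n * fourier n x) :=
    continuous_finsetSum _ fun n _ => continuous_const.mul (map_continuous (fourier n))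
  obtain ⟨C, hC⟩ := (isCompact_univ (X := AddCircle T)).exists_bound_of_continuousOn
    hcont.continuousOn
  exact memLlogL_of_bound hcont.aestronglyMeasurable C fun x => hC x (Set.mem_univ x)

lemma MemLlogL.congr_ae {f g : AddCircle T → ℂ} (hf : MemLlogL f)
    (h : f =ᵐ[haarAddCircle] g) : MemLlogL g := by
  refine memLlogL_iff.mpr ⟨hf.1.congr h, (memLlogL_iff.mp hf).2.congr ?_⟩
  filter_upwards [h] with x hx
  rw [hx]

lemma MemLlogL.translate {f : AddCircle T → ℂ} (hf : MemLlogL f) (t : AddCircle T) :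
    MemLlogL (fun x => f (x - t)) := by
  refine memLlogL_iff.mpr ⟨?_, ?_⟩
  · exact hf.1.comp_measurePreserving (measurePreserving_sub_right haarAddCircle t)
  · exact (memLlogL_iff.mp hf).2.comp_sub_right t

end Vale.Agent.Lib.P091
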