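import Vale.Agent.Lib.P091.Basic

/-!
# Covering the circle by translates of a set of positive measure

Helper file for problem P091.
-/

namespace Vale.Agent.Lib.P091

open MeasureTheory AddCircle Filter Topology
open scoped ENNReal

variable {T : ℝ} [hT : Fact (0 < T)]

/-- For measurable sets `E`, `A` some translate of `E` meets `A` in measure at least
`μ(E) μ(A)` (averaging over the translation parameter). -/
lemma exists_translate_inter_ge {E A : Set (AddCircle T)} (hE : MeasurableSet E)
    (hA : MeasurableSet A) :
    ∃ t : AddCircle T, (haarAddCircle : Measure (AddCircle T)) E * haarAddCircle A ≤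
      haarAddCircle ({x | x + t ∈ E} ∩ A) := by
  set F : AddCircle T → AddCircle T → ℝ≥0∞ :=
    fun t x => E.indicator 1 (x + t) * A.indicator 1 x with hFdef
  have hF : Measurable (Function.uncurry F) := by
    apply Measurable.mul
    · exact (measurable_const.indicator hE).comp (measurable_snd.add measurable_fst)
    · exact (measurable_const.indicator hA).comp measurable_snd
  have hpre : ∀ t : AddCircle T, MeasurableSet {x : AddCircle T | x + t ∈ E} := fun t =>
    (measurable_id.add measurable_const) hE
  have h1 : ∀ t, ∫⁻ x, F t x ∂(haarAddCircle : Measure (AddCircle T)) =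
      haarAddCircle ({x | x + t ∈ E} ∩ A) := by
    intro t
    rw [← lintegral_indicator_one ((hpre t).inter hA)]
    congr 1
    funext x
    simp only [hFdef]
    by_cases h1 : x + t ∈ E <;> by_cases h2 : x ∈ A <;> simp [Set.indicator, h1, h2]
  have h2 : ∫⁻ t, ∫⁻ x, F t x ∂(haarAddCircle : Measure (AddCircle T))
      ∂(haarAddCircle : Measure (AddCircle T)) = haarAddCircle E * haarAddCircle A := by
    rw [lintegral_lintegral_swap hF.aemeasurable]
    have h3 : ∀ x, ∫⁻ t, F t x ∂(haarAddCircle : Measure (AddCircle T)) =
        haarAddCircle E * A.indicator 1 x := by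
      intro x
      simp only [hFdef]
      have hmeas : Measurable (fun t : AddCircle T => E.indicator (1 : AddCircle T → ℝ≥0∞) (x + t)) :=
        (measurable_const.indicator hE).comp (measurable_const.add measurable_id)
      rw [lintegral_mul_const (A.indicator 1 x)
        (f := fun t : AddCircle T => E.indicator (1 : AddCircle T → ℝ≥0∞) (x + t)) hmeas]
      rw [lintegral_add_left_eq_self (fun y => E.indicator (1 : AddCircle T → ℝ≥0∞) y) x,
        lintegral_indicator_one hE]
    simp_rw [h3]
    rw [lintegral_const_mul (haarAddCircle E)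
      (f := fun y : AddCircle T => A.indicator (1 : AddCircle T → ℝ≥0∞) y)
      (measurable_const.indicator hA), lintegral_indicator_one hA]
  obtain ⟨t, ht⟩ := exists_lintegral_le (μ := (haarAddCircle : Measure (AddCircle T)))
    (f := fun t => ∫⁻ x, F t x ∂(haarAddCircle : Measure (AddCircle T))) (by
      rw [h2]
      exact ENNReal.mul_ne_top (measure_ne_top _ _) (measure_ne_top _ _))
  refine ⟨t, ?_⟩
  rw [← h2, ← h1 t]
  exact ht

omit hT in
lemma measurableSet_uncovered {E : Set (AddCircle T)} (hE : MeasurableSet E)
    (l : List (AddCircle T)) : MeasurableSet {x : AddCircle T | ∀ t ∈ l, x + t ∉ E} := by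
  have : {x : AddCircle T | ∀ t ∈ l, x + t ∉ E} =
      ⋂ t ∈ l.toFinset, {x : AddCircle T | x + t ∉ E} := by
    ext x
    simp
  rw [this]
  exact Finset.measurableSet_biInter l.toFinset
    fun t _ => ((measurable_id.add measurable_const) hE).compl

/-- Greedy covering: `n` suitable translates of `E` leave uncovered a set of measure at most
`(1 - μ(E))^n`. -/
lemma exists_translates_uncovered_le {E : Set (AddCircle T)} (hE : MeasurableSet E) (n : ℕ) :
    ∃ l : List (AddCircle T), l.length = n ∧
      (haarAddCircle : Measure (AddCircle T)).real {x | ∀ t ∈ l, x + t ∉ E} ≤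
        (1 - (haarAddCircle : Measure (AddCircle T)).real E) ^ n := by
  induction n with
  | zero =>
    refine ⟨[], rfl, ?_⟩
    simp
  | succ n ih =>
    obtain ⟨l, hl, hU⟩ := ih
    set U : Set (AddCircle T) := {x | ∀ t ∈ l, x + t ∉ E} with hUdef
    have hUmeas : MeasurableSet U := measurableSet_uncovered hE l
    obtain ⟨t, ht⟩ := exists_translate_inter_ge hE hUmeas
    refine ⟨t :: l, by simp [hl], ?_⟩
    have hset : {x : AddCircle T | ∀ t' ∈ t :: l, x + t' ∉ E} = U \ {x | x + t ∈ E} := by
      ext x
      simp only [List.mem_cons, forall_eq_or_imp, Set.mem_ofPred_eq, Set.mem_sdiff, hUdef]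
      tauto
    rw [hset]
    have hpre : MeasurableSet {x : AddCircle T | x + t ∈ E} :=
      (measurable_id.add measurable_const) hE
    have hsplit := measureReal_inter_add_sdiff (μ := (haarAddCircle : Measure (AddCircle T)))
      (s := U) hpre
    have ht' : (haarAddCircle : Measure (AddCircle T)).real E *
        (haarAddCircle : Measure (AddCircle T)).real U ≤
        (haarAddCircle : Measure (AddCircle T)).real (U ∩ {x | x + t ∈ E}) := by
      rw [Set.inter_comm]
      simp only [Measure.real]
      rw [← ENNReal.toReal_mul]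
      exact ENNReal.toReal_mono (measure_ne_top _ _) ht
    have hE1 : (haarAddCircle : Measure (AddCircle T)).real E ≤ 1 := measureReal_le_one
    calc (haarAddCircle : Measure (AddCircle T)).real (U \ {x | x + t ∈ E})
        = (haarAddCircle : Measure (AddCircle T)).real U -
          (haarAddCircle : Measure (AddCircle T)).real (U ∩ {x | x + t ∈ E}) := by linarith
      _ ≤ (1 - (haarAddCircle : Measure (AddCircle T)).real E) *
          (haarAddCircle : Measure (AddCircle T)).real U := by linarith
      _ ≤ (1 - (haarAddCircle : Measure (AddCircle T)).real E) *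
          (1 - (haarAddCircle : Measure (AddCircle T)).real E) ^ n :=
        mul_le_mul_of_nonneg_left hU (by linarith)
      _ = (1 - (haarAddCircle : Measure (AddCircle T)).real E) ^ (n + 1) := by ring

/-- Covering lemma: if `μ(E) > 0` then at most `2 / μ(E)` translates of `E` cover a set of
measure at least `1/2`. -/
lemma exists_translates_cover_half {E : Set (AddCircle T)} (hE : MeasurableSet E)
    (hpos : 0 < (haarAddCircle : Measure (AddCircle T)).real E) :
    ∃ l : List (AddCircle T), 1 ≤ l.length ∧
      (l.length : ℝ) ≤ 2 / (haarAddCircle : Measure (AddCircle T)).real E ∧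
      1 / 2 ≤ (haarAddCircle : Measure (AddCircle T)).real {x | ∃ t ∈ l, x + t ∈ E} := by
  set m := (haarAddCircle : Measure (AddCircle T)).real E with hmdef
  have hm1 : m ≤ 1 := measureReal_le_one
  set n := ⌈1 / m⌉₊ with hndef
  have hn1 : 1 / m ≤ (n : ℝ) := Nat.le_ceil _
  have hn2 : (n : ℝ) < 1 / m + 1 := Nat.ceil_lt_add_one (by positivity)
  have hinv : 1 ≤ 1 / m := by
    rw [le_div_iff₀ hpos]
    linarith
  obtain ⟨l, hl, hU⟩ := exists_translates_uncovered_le hE n
  refine ⟨l, ?_, ?_, ?_⟩
  · rw [hl]
    have : (1 : ℝ) ≤ n := hinv.trans hn1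
    exact_mod_cast this
  · rw [hl]
    have : 1 / m + 1 ≤ 2 / m := by
      rw [show (2 : ℝ) / m = 1 / m + 1 / m by ring]
      linarith
    linarith
  · have hpow : (1 - m) ^ n ≤ 1 / 2 := by
      have h1 : 1 - m ≤ Real.exp (-m) := Real.one_sub_le_exp_neg m
      have h2 : (1 - m) ^ n ≤ Real.exp (-m) ^ n :=
        pow_le_pow_left₀ (by linarith) h1 n
      have h3 : Real.exp (-m) ^ n = Real.exp (-(m * n)) := by
        rw [← Real.exp_nat_mul]
        congr 1
        ring
      have h4 : 1 ≤ m * n := by
        have := mul_le_mul_of_nonneg_left hn1 hpos.le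
        rwa [mul_one_div_cancel hpos.ne'] at this
      have h5 : Real.exp (-(m * n)) ≤ Real.exp (-1) := Real.exp_le_exp.mpr (by linarith)
      have h6 : Real.exp (-1) ≤ 1 / 2 := by
        rw [Real.exp_neg, one_div]
        refine inv_anti₀ (by norm_num) ?_
        have := Real.exp_one_gt_d9
        linarith
      rw [h3] at h2
      linarith
    have hcompl : {x : AddCircle T | ∃ t ∈ l, x + t ∈ E} = {x | ∀ t ∈ l, x + t ∉ E}ᶜ := by
      ext x
      simp
    have hUmeas : MeasurableSet {x : AddCircle T | ∀ t ∈ l, x + t ∉ E} :=
      measurableSet_uncovered hE l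
    rw [hcompl, probReal_compl_eq_one_sub hUmeas]
    linarith

end Vale.Agent.Lib.P091
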