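import Mathlib

/-!
# Definitions for problem P091 (Fourier series on the circle, the class `L log L`)
-/

namespace Vale.Agent.Lib.P091

open MeasureTheory AddCircle

/-- The symmetric Fourier sum `S_N f (x) = ∑_{|n| ≤ N} f̂(n) e_n(x)` of a function on the
circle `AddCircle T`, where `f̂(n) = fourierCoeff f n` is computed with respect to the
normalized Haar measure and `e_n = fourier n`. -/
noncomputable def fourierSum {T : ℝ} [Fact (0 < T)] (N : ℕ) (f : AddCircle T → ℂ)
    (x : AddCircle T) : ℂ :=
  ∑ n ∈ Finset.Icc (-(N : ℤ)) (N : ℤ), fourierCoeff f n * fourier n x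

/-- Membership in the Orlicz class `L log L` of the circle: `f` is (a.e. strongly) measurable
and `∫ |f| log (2 + |f|) dμ < ∞` for the normalized Haar measure `μ`. -/
def MemLlogL {T : ℝ} [Fact (0 < T)] (f : AddCircle T → ℂ) : Prop :=
  AEStronglyMeasurable f haarAddCircle ∧
    Integrable (fun x => ‖f x‖ * Real.log (2 + ‖f x‖)) haarAddCircle

end Vale.Agent.Lib.P091
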