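import Vale.Agent.Lib.P091.Class

/-!
# Density of trigonometric polynomials in `L log L` (modular form)

Helper file for problem P091.
-/

namespace Vale.Agent.Lib.P091

open MeasureTheory AddCircle Filter Topology
open scoped ENNReal

variable {T : ℝ} [hT : Fact (0 < T)]

/-- For every `f ∈ L log L` and every scale `κ > 0` there is a trigonometric polynomial `p`
with `∫ Φ(|f - p| / κ) ≤ 1`. -/
lemma exists_trigPoly_modular_approx {f : AddCircle T → ℂ} (hf : MemLlogL f) {κ : ℝ}
    (hκ : 0 < κ) :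
    ∃ (s : Finset ℤ) (c : ℤ → ℂ),
      ∫ x, phi (‖f x - ∑ n ∈ s, c n * fourier n x‖ / κ) ∂haarAddCircle ≤ 1 := by
  classical
  set f' := hf.1.mk f with hf'def
  have hff' : f =ᵐ[haarAddCircle] f' := hf.1.ae_eq_mk
  have hf'meas : StronglyMeasurable f' := hf.1.stronglyMeasurable_mk
  have hf' : MemLlogL f' := hf.congr_ae hff'
  set c₀ : ℝ := 2 / κ with hc₀def
  have hc₀ : 0 < c₀ := by positivity
  have hg : Integrable (fun x => phi (c₀ * ‖f' x‖)) haarAddCircle :=
    hf'.integrable_phi_mul hc₀.le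
  set trunc : ℕ → AddCircle T → ℂ := fun m => Set.indicator {x | ‖f' x‖ ≤ (m : ℝ)} f'
    with htrunc
  have htrunc_meas : ∀ m, StronglyMeasurable (trunc m) := fun m =>
    hf'meas.indicator (measurableSet_le hf'meas.norm.measurable measurable_const)
  have htrunc_apply : ∀ m x, trunc m x = if ‖f' x‖ ≤ (m : ℝ) then f' x else 0 := by
    intro m x
    simp only [htrunc, Set.indicator_apply, Set.mem_ofPred_eq]
  have hdiff_le : ∀ m x, ‖f' x - trunc m x‖ ≤ ‖f' x‖ := by
    intro m x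
    rw [htrunc_apply]
    split_ifs <;> simp
  have hdiff_int : ∀ m, Integrable (fun x => phi (c₀ * ‖f' x - trunc m x‖)) haarAddCircle := by
    intro m
    refine Integrable.mono' hg
      (aemeasurable_phi_comp (hf'meas.sub (htrunc_meas m)).aestronglyMeasurable c₀)
      (ae_of_all _ fun x => ?_)
    rw [Real.norm_of_nonneg (phi_nonneg (mul_nonneg hc₀.le (norm_nonneg _)))]
    exact phi_mono (mul_nonneg hc₀.le (norm_nonneg _))
      (mul_le_mul_of_nonneg_left (hdiff_le m x) hc₀.le)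
  have hlim : Tendsto (fun m : ℕ => ∫ x, phi (c₀ * ‖f' x - trunc m x‖) ∂haarAddCircle) atTop
      (𝓝 (∫ _x : AddCircle T, (0 : ℝ) ∂haarAddCircle)) := by
    refine tendsto_integral_of_dominated_convergence (fun x => phi (c₀ * ‖f' x‖))
      (fun m => (hdiff_int m).aestronglyMeasurable) hg ?_ ?_
    · intro m
      refine ae_of_all _ fun x => ?_
      rw [Real.norm_of_nonneg (phi_nonneg (mul_nonneg hc₀.le (norm_nonneg _)))]
      exact phi_mono (mul_nonneg hc₀.le (norm_nonneg _))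
        (mul_le_mul_of_nonneg_left (hdiff_le m x) hc₀.le)
    · refine ae_of_all _ fun x => ?_
      refine tendsto_const_nhds.congr' ?_
      obtain ⟨m₀, hm₀⟩ := exists_nat_ge ‖f' x‖
      filter_upwards [eventually_ge_atTop m₀] with m hm
      have hle : ‖f' x‖ ≤ (m : ℝ) := hm₀.trans (by exact_mod_cast hm)
      rw [htrunc_apply, if_pos hle]
      simp [phi_zero]
  rw [integral_zero] at hlim
  obtain ⟨m, hm⟩ := (hlim.eventually (gt_mem_nhds (show (0 : ℝ) < 1 by norm_num))).exists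
  have hu_bound : ∀ x, ‖trunc m x‖ ≤ (m : ℝ) := by
    intro x
    rw [htrunc_apply]
    split_ifs with h
    · exact h
    · simp
  have hu2 : MemLp (trunc m) 2 haarAddCircle :=
    MemLp.of_bound (htrunc_meas m).aestronglyMeasurable m (ae_of_all _ hu_bound)
  obtain ⟨s, c, hsc⟩ := exists_trigPoly_L2_approx hu2 (η := 1 / (3 * c₀ ^ 2)) (by positivity)
  refine ⟨s, c, ?_⟩
  set p : AddCircle T → ℂ := fun x => ∑ n ∈ s, c n * fourier n x with hpdef
  have hup2 : MemLp (fun x => trunc m x - p x) 2 haarAddCircle := hu2.sub (memLp_trigPoly s c 2)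
  have hup_sq : Integrable (fun x => ‖trunc m x - p x‖ ^ 2) haarAddCircle :=
    (memLp_two_iff_integrable_sq_norm hup2.1).mp hup2
  have hB : ∫ x, phi (c₀ * ‖trunc m x - p x‖) ∂haarAddCircle ≤ 1 := by
    have h1 : ∫ x, phi (c₀ * ‖trunc m x - p x‖) ∂haarAddCircle ≤
        ∫ x, (1 / 2 + 3 / 2 * c₀ ^ 2 * ‖trunc m x - p x‖ ^ 2) ∂haarAddCircle := by
      refine integral_mono_of_nonneg
        (ae_of_all _ fun x => phi_nonneg (mul_nonneg hc₀.le (norm_nonneg _)))
        ((integrable_const _).add (hup_sq.const_mul _)) (ae_of_all _ fun x => ?_)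
      have h2 := phi_le_add_sq (mul_nonneg hc₀.le (norm_nonneg (trunc m x - p x)))
      simp only
      nlinarith [sq_nonneg (c₀ * ‖trunc m x - p x‖ - 1)]
    have h3 : ∫ x, (1 / 2 + 3 / 2 * c₀ ^ 2 * ‖trunc m x - p x‖ ^ 2) ∂haarAddCircle =
        1 / 2 + 3 / 2 * c₀ ^ 2 * ∫ x, ‖trunc m x - p x‖ ^ 2 ∂haarAddCircle := by
      rw [integral_add (integrable_const _) (hup_sq.const_mul _), integral_const_mul]
      simp
    rw [h3] at h1
    have h4 : 3 / 2 * c₀ ^ 2 * ∫ x, ‖trunc m x - p x‖ ^ 2 ∂haarAddCircle ≤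
        3 / 2 * c₀ ^ 2 * (1 / (3 * c₀ ^ 2)) :=
      mul_le_mul_of_nonneg_left hsc.le (by positivity)
    have h5 : 3 / 2 * c₀ ^ 2 * (1 / (3 * c₀ ^ 2)) = 1 / 2 := by
      field_simp
    linarith
  have hup_phi : Integrable (fun x => phi (c₀ * ‖trunc m x - p x‖)) haarAddCircle := by
    have hmem : MemLlogL (fun x => trunc m x - p x) :=
      (memLlogL_of_bound (htrunc_meas m).aestronglyMeasurable m hu_bound).sub
        (memLlogL_trigPoly s c)
    exact hmem.integrable_phi_mul hc₀.le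
  have hcongr : ∫ x, phi (‖f x - p x‖ / κ) ∂haarAddCircle =
      ∫ x, phi (‖f' x - p x‖ / κ) ∂haarAddCircle := by
    refine integral_congr_ae ?_
    filter_upwards [hff'] with x hx
    rw [hx]
  rw [hcongr]
  have hmain : ∫ x, phi (‖f' x - p x‖ / κ) ∂haarAddCircle ≤
      ∫ x, (1 / 2 * phi (c₀ * ‖f' x - trunc m x‖) + 1 / 2 * phi (c₀ * ‖trunc m x - p x‖))
        ∂haarAddCircle := by
    refine integral_mono_of_nonneg
      (ae_of_all _ fun x => phi_nonneg (div_nonneg (norm_nonneg _) hκ.le))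
      (((hdiff_int m).const_mul _).add (hup_phi.const_mul _)) (ae_of_all _ fun x => ?_)
    simp only
    have h1 : ‖f' x - p x‖ / κ ≤ ‖f' x - trunc m x‖ / κ + ‖trunc m x - p x‖ / κ := by
      rw [← add_div]
      refine div_le_div_of_nonneg_right ?_ hκ.le
      have : f' x - p x = (f' x - trunc m x) + (trunc m x - p x) := by ring
      rw [this]
      exact norm_add_le _ _
    have h2 := phi_add_le (div_nonneg (norm_nonneg (f' x - trunc m x)) hκ.le)
      (div_nonneg (norm_nonneg (trunc m x - p x)) hκ.le)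
    have e1 : 2 * (‖f' x - trunc m x‖ / κ) = c₀ * ‖f' x - trunc m x‖ := by
      rw [hc₀def]; ring
    have e2 : 2 * (‖trunc m x - p x‖ / κ) = c₀ * ‖trunc m x - p x‖ := by
      rw [hc₀def]; ring
    rw [e1, e2] at h2
    exact (phi_mono (div_nonneg (norm_nonneg _) hκ.le) h1).trans h2
  have hsplit : ∫ x, (1 / 2 * phi (c₀ * ‖f' x - trunc m x‖) +
      1 / 2 * phi (c₀ * ‖trunc m x - p x‖)) ∂haarAddCircle =
      1 / 2 * ∫ x, phi (c₀ * ‖f' x - trunc m x‖) ∂haarAddCircle +
      1 / 2 * ∫ x, phi (c₀ * ‖trunc m x - p x‖) ∂haarAddCircle := by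
    rw [integral_add ((hdiff_int m).const_mul _) (hup_phi.const_mul _), integral_const_mul,
      integral_const_mul]
  rw [hsplit] at hmain
  linarith

end Vale.Agent.Lib.P091
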