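import Vale.Agent.Lib.P091.Density

/-!
# A weak type estimate on `L log L` implies almost everywhere convergence

Helper file for problem P091.
-/

namespace Vale.Agent.Lib.P091

open MeasureTheory AddCircle Filter Topology
open scoped ENNReal

variable {T : ℝ} [hT : Fact (0 < T)]

/-- `∫ |h| ≤ 2 κ` when `∫ Φ(|h| / κ) ≤ 1`. -/
lemma integral_norm_le_of_modular {h : AddCircle T → ℂ} (hh : MemLlogL h) {κ : ℝ} (hκ : 0 < κ)
    (hmod : ∫ x, phi (‖h x‖ / κ) ∂haarAddCircle ≤ 1) :
    ∫ x, ‖h x‖ ∂haarAddCircle ≤ 2 * κ := by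
  have h1 : ∫ x, ‖h x‖ ∂haarAddCircle ≤ ∫ x, 2 * κ * phi (‖h x‖ / κ) ∂haarAddCircle := by
    refine integral_mono_of_nonneg (ae_of_all _ fun x => norm_nonneg _)
      ((hh.integrable_phi_div hκ).const_mul _) (ae_of_all _ fun x => ?_)
    have h2 := half_mul_le_phi (div_nonneg (norm_nonneg (h x)) hκ.le)
    simp only
    have h3 : ‖h x‖ = 2 * κ * (‖h x‖ / κ / 2) := by field_simp
    calc ‖h x‖ = 2 * κ * (‖h x‖ / κ / 2) := h3
      _ ≤ 2 * κ * phi (‖h x‖ / κ) := mul_le_mul_of_nonneg_left h2 (by positivity)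
  rw [integral_const_mul] at h1
  have h4 : 2 * κ * ∫ x, phi (‖h x‖ / κ) ∂haarAddCircle ≤ 2 * κ * 1 :=
    mul_le_mul_of_nonneg_left hmod (by positivity)
  linarith

/-- The weak type estimate on `L log L` implies almost everywhere convergence of the Fourier
sums for every function in `L log L`. -/
theorem ae_tendsto_of_weakType (K : ℝ)
    (hK : ∀ f : AddCircle T → ℂ, MemLlogL f → ∀ κ : ℝ, 0 < κ →
      ∫ x, phi (‖f x‖ / κ) ∂haarAddCircle ≤ 1 → ∀ lam : ℝ, 0 < lam →
        lam * (haarAddCircle : Measure (AddCircle T)).real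
          {x | ∃ N, lam < ‖fourierSum N f x‖} ≤ K * κ)
    {f : AddCircle T → ℂ} (hf : MemLlogL f) :
    ∀ᵐ x ∂haarAddCircle, Tendsto (fun N => fourierSum N f x) atTop (𝓝 (f x)) := by
  classical
  -- the bad set at scale `η`
  have hbad : ∀ η : ℝ, 0 < η → (haarAddCircle : Measure (AddCircle T))
      {x | ¬ ∀ᶠ N in atTop, ‖fourierSum N f x - f x‖ ≤ 2 * η} = 0 := by
    intro η hη
    rw [← measureReal_eq_zero_iff]
    refine le_antisymm ?_ measureReal_nonneg
    refine le_of_forall_pos_le_add fun ε hε => ?_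
    rw [zero_add]
    set κ : ℝ := ε * η / (|K| + 3) with hκdef
    have hK3 : 0 < |K| + 3 := by positivity
    have hκ : 0 < κ := by positivity
    obtain ⟨s, c, hsc⟩ := exists_trigPoly_modular_approx hf hκ
    set p : AddCircle T → ℂ := fun x => ∑ n ∈ s, c n * fourier n x with hpdef
    set h : AddCircle T → ℂ := fun x => f x - p x with hhdef
    have hp : MemLlogL p := memLlogL_trigPoly s c
    have hh : MemLlogL h := hf.sub hp
    have hfeq : f = h + p := by
      funext x
      simp [hhdef]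
    -- a uniform degree bound
    obtain ⟨N₀, hN₀⟩ : ∃ N₀ : ℕ, ∀ N, N₀ ≤ N → s ⊆ Finset.Icc (-(N : ℤ)) (N : ℤ) := by
      refine ⟨s.sup Int.natAbs, fun N hN n hn => ?_⟩
      have h1 : n.natAbs ≤ s.sup Int.natAbs := Finset.le_sup (f := Int.natAbs) hn
      rw [Finset.mem_Icc]
      omega
    have hsub : {x | ¬ ∀ᶠ N in atTop, ‖fourierSum N f x - f x‖ ≤ 2 * η} ⊆
        {x | ∃ N, η < ‖fourierSum N h x‖} ∪ {x | η ≤ ‖h x‖} := by
      intro x hx
      by_contra hcon
      simp only [Set.mem_union, Set.mem_ofPred_eq, not_or, not_exists, not_lt, not_le] at hcon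
      apply hx
      filter_upwards [eventually_ge_atTop N₀] with N hN
      have h1 : fourierSum N f x = fourierSum N h x + p x := by
        rw [hfeq, fourierSum_add N hh.integrable hp.integrable, hpdef,
          fourierSum_trigPoly s c (hN₀ N hN)]
      have h2 : fourierSum N f x - f x = fourierSum N h x - h x := by
        rw [h1]
        simp only [hhdef]
        ring
      rw [h2]
      calc ‖fourierSum N h x - h x‖ ≤ ‖fourierSum N h x‖ + ‖h x‖ := norm_sub_le _ _
        _ ≤ η + η := add_le_add (hcon.1 N) hcon.2.le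
        _ = 2 * η := by ring
    have hm1 : η * (haarAddCircle : Measure (AddCircle T)).real
        {x | ∃ N, η < ‖fourierSum N h x‖} ≤ K * κ := hK h hh κ hκ hsc η hη
    have hm2 : η * (haarAddCircle : Measure (AddCircle T)).real {x | η ≤ ‖h x‖} ≤ 2 * κ :=
      (mul_meas_ge_le_integral_of_nonneg (ae_of_all _ fun x => norm_nonneg (h x))
        hh.integrable.norm η).trans (integral_norm_le_of_modular hh hκ hsc)
    have hm3 : (haarAddCircle : Measure (AddCircle T)).real
        {x | ¬ ∀ᶠ N in atTop, ‖fourierSum N f x - f x‖ ≤ 2 * η} ≤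
        (haarAddCircle : Measure (AddCircle T)).real {x | ∃ N, η < ‖fourierSum N h x‖} +
        (haarAddCircle : Measure (AddCircle T)).real {x | η ≤ ‖h x‖} :=
      (measureReal_mono hsub).trans (measureReal_union_le _ _)
    have hKle : K * κ ≤ |K| * κ := mul_le_mul_of_nonneg_right (le_abs_self K) hκ.le
    have hfin : η * (haarAddCircle : Measure (AddCircle T)).real
        {x | ¬ ∀ᶠ N in atTop, ‖fourierSum N f x - f x‖ ≤ 2 * η} ≤ (|K| + 2) * κ := by
      have := mul_le_mul_of_nonneg_left hm3 hη.le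
      nlinarith
    have hκe : (|K| + 2) * κ ≤ η * ε := by
      rw [hκdef]
      have : (|K| + 2) * (ε * η / (|K| + 3)) = η * ε * ((|K| + 2) / (|K| + 3)) := by
        field_simp
      rw [this]
      have h1 : (|K| + 2) / (|K| + 3) ≤ 1 := by
        rw [div_le_one hK3]
        linarith
      have h2 : 0 ≤ η * ε := by positivity
      nlinarith
    exact le_of_mul_le_mul_left (hfin.trans hκe) hη
  have hall : ∀ᵐ x ∂(haarAddCircle : Measure (AddCircle T)), ∀ k : ℕ,
      ∀ᶠ N in atTop, ‖fourierSum N f x - f x‖ ≤ 2 * (1 / ((k : ℝ) + 1)) := by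
    rw [ae_all_iff]
    intro k
    have := hbad (1 / ((k : ℝ) + 1)) (by positivity)
    rw [← compl_mem_ae_iff] at this
    filter_upwards [this] with x hx
    simpa using hx
  filter_upwards [hall] with x hx
  rw [Metric.tendsto_atTop]
  intro ε hε
  obtain ⟨k, hk⟩ := exists_nat_gt (2 / ε)
  obtain ⟨N, hN⟩ := eventually_atTop.mp (hx k)
  refine ⟨N, fun n hn => ?_⟩
  rw [dist_eq_norm]
  refine lt_of_le_of_lt (hN n hn) ?_
  have hk1 : (0 : ℝ) < (k : ℝ) + 1 := by positivity
  rw [mul_one_div, div_lt_iff₀ hk1]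
  have : 2 / ε < (k : ℝ) + 1 := by linarith
  rw [div_lt_iff₀ hε] at this
  linarith

end Vale.Agent.Lib.P091
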