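import Vale.Agent.Lib.P091.Hump
import Vale.Agent.Lib.P091.WeakToConv

/-!
# Equivalent forms of the convergence question on `L log L`

Helper file for problem P091: assembling the three implications.
-/

namespace Vale.Agent.Lib.P091

open MeasureTheory AddCircle Filter Topology

variable {T : ℝ} [hT : Fact (0 < T)]

/-- Almost everywhere convergence implies almost everywhere boundedness. -/
theorem ae_bounded_of_ae_tendsto
    (hA : ∀ f : AddCircle T → ℂ, MemLlogL f →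
      ∀ᵐ x ∂haarAddCircle, Tendsto (fun N : ℕ => fourierSum N f x) atTop (𝓝 (f x))) :
    ∀ f : AddCircle T → ℂ, MemLlogL f →
      ∀ᵐ x ∂haarAddCircle, ∃ C : ℝ, ∀ N : ℕ, ‖fourierSum N f x‖ ≤ C := by
  intro f hf
  filter_upwards [hA f hf] with x hx
  obtain ⟨C, hC⟩ := (Metric.isBounded_range_of_tendsto _ hx).exists_norm_le
  exact ⟨C, fun N => hC _ (Set.mem_range_self N)⟩

/-- The weak type estimate implies almost everywhere convergence. -/
theorem ae_tendsto_of_exists_weakType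
    (hC : ∃ K : ℝ, ∀ f : AddCircle T → ℂ, MemLlogL f → ∀ κ : ℝ, 0 < κ →
      ∫ x, ‖f x‖ / κ * Real.log (2 + ‖f x‖ / κ) ∂haarAddCircle ≤ 1 → ∀ lam : ℝ, 0 < lam →
        lam * (haarAddCircle : Measure (AddCircle T)).real
          {x | ∃ N : ℕ, lam < ‖fourierSum N f x‖} ≤ K * κ) :
    ∀ f : AddCircle T → ℂ, MemLlogL f →
      ∀ᵐ x ∂haarAddCircle, Tendsto (fun N : ℕ => fourierSum N f x) atTop (𝓝 (f x)) := by
  obtain ⟨K, hK⟩ := hC
  intro f hf
  exact ae_tendsto_of_weakType K hK hf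

/-- Almost everywhere boundedness implies the weak type estimate. -/
theorem exists_weakType_of_ae_bounded
    (hB : ∀ f : AddCircle T → ℂ, MemLlogL f →
      ∀ᵐ x ∂haarAddCircle, ∃ C : ℝ, ∀ N : ℕ, ‖fourierSum N f x‖ ≤ C) :
    ∃ K : ℝ, ∀ f : AddCircle T → ℂ, MemLlogL f → ∀ κ : ℝ, 0 < κ →
      ∫ x, ‖f x‖ / κ * Real.log (2 + ‖f x‖ / κ) ∂haarAddCircle ≤ 1 → ∀ lam : ℝ, 0 < lam →
        lam * (haarAddCircle : Measure (AddCircle T)).real
          {x | ∃ N : ℕ, lam < ‖fourierSum N f x‖} ≤ K * κ :=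
  weakType_of_ae_bounded hB

end Vale.Agent.Lib.P091
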