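import Vale.Agent.Lib.P091.Class

/-!
# Absolutely convergent series of functions in `L¹` and in `L log L`

Helper file for problem P091.
-/

namespace Vale.Agent.Lib.P091

open MeasureTheory AddCircle Filter Topology
open scoped ENNReal

section General

variable {α : Type*} [MeasurableSpace α] {μ : Measure α}

/-- A series of integrable functions whose `L¹` norms are summable converges absolutely almost
everywhere. -/
lemma ae_summable_norm_of_summable_integral {Hs : ℕ → α → ℂ} (hint : ∀ i, Integrable (Hs i) μ)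
    (hsum : Summable fun i => ∫ x, ‖Hs i x‖ ∂μ) :
    ∀ᵐ x ∂μ, Summable fun i => ‖Hs i x‖ := by
  have hm : ∀ i, AEMeasurable (fun x => ‖Hs i x‖ₑ) μ := fun i => (hint i).1.enorm
  have hfin : ∑' i, ∫⁻ x, ‖Hs i x‖ₑ ∂μ ≠ ∞ := by
    have : ∀ i, ∫⁻ x, ‖Hs i x‖ₑ ∂μ = ENNReal.ofReal (∫ x, ‖Hs i x‖ ∂μ) := fun i =>
      (ofReal_integral_norm_eq_lintegral_enorm (hint i)).symm
    simp_rw [this]
    exact hsum.tsum_ofReal_ne_top
  rw [← lintegral_tsum hm] at hfin
  refine (ae_lt_top' (AEMeasurable.tsum hm) hfin).mono fun x hx => ?_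
  have h2 : Summable fun i => ((‖Hs i x‖₊ : NNReal) : ℝ) := by
    rw [← ENNReal.tsum_coe_ne_top_iff_summable_coe]
    exact hx.ne
  simpa using h2

/-- The tail of an absolutely convergent series of integrable functions is integrable with
`L¹` norm at most the sum of the `L¹` norms of the terms of the tail. -/
lemma integral_norm_tail_le {Hs : ℕ → α → ℂ} (hint : ∀ i, Integrable (Hs i) μ)
    (hsum : Summable fun i => ∫ x, ‖Hs i x‖ ∂μ) (n : ℕ) :
    Integrable (fun x => ∑' i, Hs i x - ∑ i ∈ Finset.range n, Hs i x) μ ∧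
      ∫ x, ‖∑' i, Hs i x - ∑ i ∈ Finset.range n, Hs i x‖ ∂μ ≤
        ∑' i, ∫ x, ‖Hs (i + n) x‖ ∂μ := by
  have hae := ae_summable_norm_of_summable_integral hint hsum
  have hm : ∀ i, AEMeasurable (fun x => ‖Hs (i + n) x‖ₑ) μ := fun i => (hint (i + n)).1.enorm
  have hsum' : Summable fun i => ∫ x, ‖Hs (i + n) x‖ ∂μ := (summable_nat_add_iff n).2 hsum
  have hnn : ∀ i, 0 ≤ ∫ x, ‖Hs (i + n) x‖ ∂μ := fun i =>
    integral_nonneg fun x => norm_nonneg _
  have hlin : ∫⁻ x, ∑' i, ‖Hs (i + n) x‖ₑ ∂μ = ENNReal.ofReal (∑' i, ∫ x, ‖Hs (i + n) x‖ ∂μ) := by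
    rw [lintegral_tsum hm, ENNReal.ofReal_tsum_of_nonneg hnn hsum']
    refine tsum_congr fun i => ?_
    exact (ofReal_integral_norm_eq_lintegral_enorm (hint (i + n))).symm
  -- the partial sums converge almost everywhere
  have hmeas : AEStronglyMeasurable (fun x => ∑' i, Hs i x) μ := by
    refine aestronglyMeasurable_of_tendsto_ae atTop
      (f := fun m x => ∑ i ∈ Finset.range m, Hs i x) (fun m => ?_) ?_
    · exact Finset.aestronglyMeasurable_fun_sum _ fun i _ => (hint i).1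
    · filter_upwards [hae] with x hx
      exact (hx.of_norm.hasSum).tendsto_sum_nat
  have hmeas2 : AEStronglyMeasurable (fun x => ∑' i, Hs i x - ∑ i ∈ Finset.range n, Hs i x) μ :=
    hmeas.sub (Finset.aestronglyMeasurable_fun_sum _ fun i _ => (hint i).1)
  have hbound : ∀ᵐ x ∂μ, ‖∑' i, Hs i x - ∑ i ∈ Finset.range n, Hs i x‖ₑ ≤
      ∑' i, ‖Hs (i + n) x‖ₑ := by
    filter_upwards [hae] with x hx
    have hx' : Summable fun i => Hs i x := hx.of_norm
    have e : ∑' i, Hs i x - ∑ i ∈ Finset.range n, Hs i x = ∑' i, Hs (i + n) x := by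
      rw [← hx'.sum_add_tsum_nat_add n]
      ring
    rw [e]
    have hxn : Summable fun i => ‖Hs (i + n) x‖ := (summable_nat_add_iff n).2 hx
    have h1 := norm_tsum_le_tsum_norm hxn
    have h2 : ∑' i, ‖Hs (i + n) x‖ₑ = ENNReal.ofReal (∑' i, ‖Hs (i + n) x‖) := by
      rw [ENNReal.ofReal_tsum_of_nonneg (fun i => norm_nonneg _) hxn]
      exact tsum_congr fun i => (ofReal_norm _).symm
    rw [h2, ← ofReal_norm]
    exact ENNReal.ofReal_le_ofReal h1
  have hle : ∫⁻ x, ‖∑' i, Hs i x - ∑ i ∈ Finset.range n, Hs i x‖ₑ ∂μ ≤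
      ENNReal.ofReal (∑' i, ∫ x, ‖Hs (i + n) x‖ ∂μ) := by
    rw [← hlin]
    exact lintegral_mono_ae hbound
  refine ⟨⟨hmeas2, lt_of_le_of_lt hle ENNReal.ofReal_lt_top⟩, ?_⟩
  rw [integral_norm_eq_lintegral_enorm hmeas2]
  exact ENNReal.toReal_le_of_le_ofReal (tsum_nonneg hnn) hle

end General

section LlogL

variable {T : ℝ} [hT : Fact (0 < T)]

lemma continuousAt_phi {t : ℝ} (ht : 0 ≤ t) : ContinuousAt phi t := by
  unfold phi
  exact continuousAt_id.mul
    ((Real.continuousAt_log (by linarith)).comp (continuousAt_const.add continuousAt_id))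

lemma sum_half_pow_succ_le_one (n : ℕ) : ∑ i ∈ Finset.range n, (1 / 2 : ℝ) ^ (i + 1) ≤ 1 := by
  have h := sum_geometric_two_le n
  have e : ∑ i ∈ Finset.range n, (1 / 2 : ℝ) ^ (i + 1) =
      (1 / 2) * ∑ i ∈ Finset.range n, (1 / 2 : ℝ) ^ i := by
    rw [Finset.mul_sum]
    exact Finset.sum_congr rfl fun i _ => by ring
  rw [e]
  linarith

/-- A series of functions with `∫ Φ(2^(i+1) |H_i|) ≤ 1` converges to a function in
`L log L`. -/
lemma memLlogL_tsum {Hs : ℕ → AddCircle T → ℂ} (hH : ∀ i, MemLlogL (Hs i))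
    (hphi : ∀ i, ∫ x, phi ((2 : ℝ) ^ (i + 1) * ‖Hs i x‖) ∂haarAddCircle ≤ 1)
    (hsum : Summable fun i => ∫ x, ‖Hs i x‖ ∂haarAddCircle) :
    MemLlogL (fun x => ∑' i, Hs i x) := by
  have hint : ∀ i, Integrable (Hs i) haarAddCircle := fun i => (hH i).integrable
  have hae := ae_summable_norm_of_summable_integral hint hsum
  have hmeas : AEStronglyMeasurable (fun x => ∑' i, Hs i x)
      (haarAddCircle : Measure (AddCircle T)) := by
    refine aestronglyMeasurable_of_tendsto_ae atTop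
      (f := fun m x => ∑ i ∈ Finset.range m, Hs i x) (fun m => ?_) ?_
    · exact Finset.aestronglyMeasurable_fun_sum _ fun i _ => (hint i).1
    · filter_upwards [hae] with x hx
      exact (hx.of_norm.hasSum).tendsto_sum_nat
  refine memLlogL_iff.mpr ⟨hmeas, ?_⟩
  have hmeas' : AEStronglyMeasurable (fun x => phi ‖∑' i, Hs i x‖)
      (haarAddCircle : Measure (AddCircle T)) := by
    have := aemeasurable_phi_comp hmeas 1
    simpa using this
  refine ⟨hmeas', ?_⟩
  rw [hasFiniteIntegral_iff_ofReal (ae_of_all _ fun x => phi_nonneg (norm_nonneg _))]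
  -- the integrable majorant
  set term : ℕ → AddCircle T → ℝ := fun i x => (1 / 2 : ℝ) ^ (i + 1) *
    phi ((2 : ℝ) ^ (i + 1) * ‖Hs i x‖) with hterm
  have hterm_nn : ∀ i x, 0 ≤ term i x := fun i x =>
    mul_nonneg (by positivity) (phi_nonneg (by positivity))
  have hterm_int : ∀ i, Integrable (term i) haarAddCircle := fun i =>
    ((hH i).integrable_phi_mul (by positivity)).const_mul _
  have hpt : ∀ᵐ x ∂(haarAddCircle : Measure (AddCircle T)),
      ENNReal.ofReal (phi ‖∑' i, Hs i x‖) ≤ ∑' i, ENNReal.ofReal (term i x) := by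
    filter_upwards [hae] with x hx
    set S : ℝ := ∑' i, ‖Hs i x‖ with hS
    have hS0 : 0 ≤ S := tsum_nonneg fun i => norm_nonneg _
    have h1 : phi ‖∑' i, Hs i x‖ ≤ phi S :=
      phi_mono (norm_nonneg _) (norm_tsum_le_tsum_norm hx)
    refine (ENNReal.ofReal_le_ofReal h1).trans ?_
    have htend : Tendsto (fun n => ENNReal.ofReal (phi (∑ i ∈ Finset.range n, ‖Hs i x‖))) atTop
        (𝓝 (ENNReal.ofReal (phi S))) :=
      (ENNReal.continuous_ofReal.tendsto _).comp
        ((continuousAt_phi hS0).tendsto.comp hx.hasSum.tendsto_sum_nat)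
    refine le_of_tendsto' htend fun n => ?_
    have h2 : phi (∑ i ∈ Finset.range n, ‖Hs i x‖) ≤ ∑ i ∈ Finset.range n, term i x := by
      have h3 := phi_sum_le (Finset.range n) (fun i => (1 / 2 : ℝ) ^ (i + 1))
        (fun i => (2 : ℝ) ^ (i + 1) * ‖Hs i x‖) (fun i _ => by positivity)
        (fun i _ => by positivity) (sum_half_pow_succ_le_one n)
      have e : ∑ i ∈ Finset.range n, (1 / 2 : ℝ) ^ (i + 1) * ((2 : ℝ) ^ (i + 1) * ‖Hs i x‖) =
          ∑ i ∈ Finset.range n, ‖Hs i x‖ := by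
        refine Finset.sum_congr rfl fun i _ => ?_
        rw [← mul_assoc, ← mul_pow]
        norm_num
      rw [e] at h3
      exact h3
    calc ENNReal.ofReal (phi (∑ i ∈ Finset.range n, ‖Hs i x‖))
        ≤ ENNReal.ofReal (∑ i ∈ Finset.range n, term i x) := ENNReal.ofReal_le_ofReal h2
      _ = ∑ i ∈ Finset.range n, ENNReal.ofReal (term i x) :=
        ENNReal.ofReal_sum_of_nonneg fun i _ => hterm_nn i x
      _ ≤ ∑' i, ENNReal.ofReal (term i x) := ENNReal.sum_le_tsum _
  refine lt_of_le_of_lt (lintegral_mono_ae hpt) ?_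
  rw [lintegral_tsum fun i => (hterm_int i).1.aemeasurable.ennreal_ofReal]
  have hle : ∀ i, ∫⁻ x, ENNReal.ofReal (term i x) ∂haarAddCircle ≤
      ENNReal.ofReal ((1 / 2 : ℝ) ^ (i + 1)) := by
    intro i
    rw [← ofReal_integral_eq_lintegral_ofReal (hterm_int i) (ae_of_all _ (hterm_nn i))]
    refine ENNReal.ofReal_le_ofReal ?_
    simp only [hterm]
    rw [integral_const_mul]
    have := hphi i
    have hp : (0 : ℝ) ≤ (1 / 2 : ℝ) ^ (i + 1) := by positivity
    nlinarith
  refine lt_of_le_of_lt (ENNReal.tsum_le_tsum hle) ?_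
  have hs : Summable fun i : ℕ => (1 / 2 : ℝ) ^ (i + 1) :=
    (summable_nat_add_iff 1).2 summable_geometric_two
  exact hs.tsum_ofReal_lt_top

end LlogL

end Vale.Agent.Lib.P091
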