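import Vale.Agent.Lib.P091.Step
import Vale.Agent.Lib.P091.Series

/-!
# Almost everywhere boundedness of the Fourier sums on `L log L` forces a weak type estimate

Helper file for problem P091: the gliding hump argument (a Stein type maximal principle for
the class `L log L`).
-/

namespace Vale.Agent.Lib.P091

open MeasureTheory AddCircle Filter Topology
open scoped ENNReal

variable {T : ℝ} [hT : Fact (0 < T)]

lemma measurableSet_exists_le (c : ℝ) (g : AddCircle T → ℂ) :
    MeasurableSet {x : AddCircle T | ∃ k : ℕ, c ≤ ‖fourierSum k g x‖} := by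
  have : {x : AddCircle T | ∃ k : ℕ, c ≤ ‖fourierSum k g x‖} =
      ⋃ k : ℕ, {x : AddCircle T | c ≤ ‖fourierSum k g x‖} := by
    ext x
    simp
  rw [this]
  exact MeasurableSet.iUnion fun k =>
    measurableSet_le measurable_const (continuous_fourierSum k g).norm.measurable

/-- **Maximal principle for `L log L`.** If the Fourier sums of every function of `L log L`
are bounded at almost every point, then the maximal Fourier sum operator satisfies a weak type
estimate on `L log L`. -/
theorem weakType_of_ae_bounded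
    (hB : ∀ f : AddCircle T → ℂ, MemLlogL f →
      ∀ᵐ x ∂haarAddCircle, ∃ C : ℝ, ∀ N : ℕ, ‖fourierSum N f x‖ ≤ C) :
    ∃ K : ℝ, ∀ f : AddCircle T → ℂ, MemLlogL f → ∀ κ : ℝ, 0 < κ →
      ∫ x, phi (‖f x‖ / κ) ∂haarAddCircle ≤ 1 → ∀ lam : ℝ, 0 < lam →
        lam * (haarAddCircle : Measure (AddCircle T)).real
          {x | ∃ N, lam < ‖fourierSum N f x‖} ≤ K * κ := by
  classical
  by_contra hC
  push Not at hC
  have hstep := exists_hump hC
  -- choice of the humps
  have hex : ∀ (j : ℕ) (G : AddCircle T → ℂ) (M : ℕ), ∃ p : (AddCircle T → ℂ) × ℕ,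
      Integrable G haarAddCircle → (MemLlogL p.1 ∧
        ∫ x, phi ((2 : ℝ) ^ (j + 1) * ‖p.1 x‖) ∂haarAddCircle ≤ 1 ∧
        (2 * (M : ℝ) + 1) * ∫ x, ‖p.1 x‖ ∂haarAddCircle ≤ (1 / 2 : ℝ) ^ (j + 1) ∧
        1 / 4 ≤ (haarAddCircle : Measure (AddCircle T)).real
          {x | ∃ k ≤ p.2, ((j + 1 : ℕ) : ℝ) ≤ ‖fourierSum k (G + p.1) x‖}) := by
    intro j G M
    by_cases hG : Integrable G haarAddCircle
    · obtain ⟨H, N, h⟩ := hstep (j + 1) (by omega) G hG M
      exact ⟨(H, N), fun _ => h⟩
    · exact ⟨(0, 0), fun h => absurd h hG⟩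
  choose stepF hstepF using hex
  -- the state sequence
  set state : ℕ → (AddCircle T → ℂ) × ℕ := fun n =>
    Nat.rec ((0 : AddCircle T → ℂ), 0)
      (fun j s => (s.1 + (stepF j s.1 s.2).1, max s.2 (stepF j s.1 s.2).2)) n with hstate
  set Hs : ℕ → AddCircle T → ℂ := fun j => (stepF j (state j).1 (state j).2).1 with hHs
  set Ns : ℕ → ℕ := fun j => (stepF j (state j).1 (state j).2).2 with hNs
  have hsucc : ∀ j, state (j + 1) = ((state j).1 + Hs j, max (state j).2 (Ns j)) := fun j => rfl
  have hGsum : ∀ n, (state n).1 = fun x => ∑ i ∈ Finset.range n, Hs i x := by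
    intro n
    induction n with
    | zero => funext x; simp [hstate]
    | succ n ih =>
      rw [hsucc]
      funext x
      simp only [Pi.add_apply, Finset.sum_range_succ]
      rw [ih]
  have hGint : ∀ n, Integrable (state n).1 haarAddCircle := by
    intro n
    induction n with
    | zero =>
      have : (state 0).1 = 0 := rfl
      rw [this]
      exact integrable_zero _ _ _
    | succ n ih =>
      rw [hsucc]
      exact ih.add (hstepF n _ _ ih).1.integrable
  have hprops := fun j => hstepF j (state j).1 (state j).2 (hGint j)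
  have hH : ∀ i, MemLlogL (Hs i) := fun i => (hprops i).1
  have hphi : ∀ i, ∫ x, phi ((2 : ℝ) ^ (i + 1) * ‖Hs i x‖) ∂haarAddCircle ≤ 1 :=
    fun i => (hprops i).2.1
  have hsmall : ∀ i, (2 * (((state i).2 : ℕ) : ℝ) + 1) * ∫ x, ‖Hs i x‖ ∂haarAddCircle ≤
      (1 / 2 : ℝ) ^ (i + 1) := fun i => (hprops i).2.2.1
  have hbig : ∀ j, 1 / 4 ≤ (haarAddCircle : Measure (AddCircle T)).real
      {x | ∃ k ≤ Ns j, ((j + 1 : ℕ) : ℝ) ≤ ‖fourierSum k (state (j + 1)).1 x‖} :=
    fun j => (hprops j).2.2.2
  have hMmono : Monotone fun j => (state j).2 := by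
    refine monotone_nat_of_le_succ fun j => ?_
    rw [hsucc]
    exact le_max_left _ _
  have hNM : ∀ j, Ns j ≤ (state (j + 1)).2 := by
    intro j
    rw [hsucc]
    exact le_max_right _ _
  have hint : ∀ i, Integrable (Hs i) haarAddCircle := fun i => (hH i).integrable
  have hnn : ∀ i, 0 ≤ ∫ x, ‖Hs i x‖ ∂haarAddCircle := fun i =>
    integral_nonneg fun x => norm_nonneg _
  have hL1 : ∀ i, ∫ x, ‖Hs i x‖ ∂haarAddCircle ≤ (1 / 2 : ℝ) ^ (i + 1) := by
    intro i
    have h1 := hsmall i
    have h2 : (0 : ℝ) ≤ ((state i).2 : ℕ) := Nat.cast_nonneg _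
    nlinarith [hnn i]
  have hgeo : Summable fun i : ℕ => (1 / 2 : ℝ) ^ (i + 1) :=
    (summable_nat_add_iff 1).2 summable_geometric_two
  have hsum : Summable fun i => ∫ x, ‖Hs i x‖ ∂haarAddCircle :=
    Summable.of_nonneg_of_le hnn hL1 hgeo
  -- the limit function
  set f : AddCircle T → ℂ := fun x => ∑' i, Hs i x with hf
  have hfL : MemLlogL f := memLlogL_tsum hH hphi hsum
  -- the Fourier sums of `f` are large on large sets
  have hW : ∀ j : ℕ, 1 / 4 ≤ (haarAddCircle : Measure (AddCircle T)).real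
      {x | ∃ k : ℕ, (j : ℝ) ≤ ‖fourierSum k f x‖} := by
    intro j
    refine (hbig j).trans (measureReal_mono ?_)
    rintro x ⟨k, hk, hkx⟩
    refine ⟨k, ?_⟩
    obtain ⟨hRint, hRle⟩ := integral_norm_tail_le hint hsum (j + 1)
    set R : AddCircle T → ℂ := fun x => ∑' i, Hs i x - ∑ i ∈ Finset.range (j + 1), Hs i x
      with hR
    have hfeq : f = (state (j + 1)).1 + R := by
      funext y
      rw [hGsum (j + 1)]
      simp only [hf, hR, Pi.add_apply]
      ring
    have hk0 : (0 : ℝ) < 2 * (k : ℝ) + 1 := by positivity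
    -- the tail is small
    have htail : (2 * (k : ℝ) + 1) * ∫ y, ‖R y‖ ∂haarAddCircle ≤ 1 := by
      have hterm : ∀ i, ∫ y, ‖Hs (i + (j + 1)) y‖ ∂haarAddCircle ≤
          1 / (2 * (k : ℝ) + 1) / 2 / 2 ^ i := by
        intro i
        have h1 := hsmall (i + (j + 1))
        have h2 : k ≤ (state (i + (j + 1))).2 :=
          (hk.trans (hNM j)).trans (hMmono (show j + 1 ≤ i + (j + 1) by omega))
        have h2' : (k : ℝ) ≤ ((state (i + (j + 1))).2 : ℕ) := by exact_mod_cast h2
        have h3 : (1 / 2 : ℝ) ^ (i + (j + 1) + 1) ≤ 1 / 2 / 2 ^ i := by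
          have e : (1 / 2 : ℝ) ^ (i + (j + 1) + 1) = 1 / 2 / 2 ^ i * (1 / 2) ^ (j + 1) := by
            rw [pow_add, pow_add, pow_one, one_div_pow]
            ring
          rw [e]
          have h4 : (1 / 2 : ℝ) ^ (j + 1) ≤ 1 := pow_le_one₀ (by norm_num) (by norm_num)
          have h5 : (0 : ℝ) ≤ 1 / 2 / 2 ^ i := by positivity
          nlinarith
        have h6 : (2 * (k : ℝ) + 1) * ∫ y, ‖Hs (i + (j + 1)) y‖ ∂haarAddCircle ≤
            1 / 2 / 2 ^ i := by
          have := hnn (i + (j + 1))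
          nlinarith
        rw [div_div, div_div, le_div_iff₀ (by positivity)]
        rw [div_div] at h6
        rw [le_div_iff₀ (by positivity)] at h6
        nlinarith
      have hsum2 : Summable fun i => ∫ y, ‖Hs (i + (j + 1)) y‖ ∂haarAddCircle :=
        (summable_nat_add_iff (j + 1)).2 hsum
      have h7 : ∑' i, ∫ y, ‖Hs (i + (j + 1)) y‖ ∂haarAddCircle ≤ 1 / (2 * (k : ℝ) + 1) := by
        have := hsum2.tsum_le_tsum hterm (summable_geometric_two' _)
        rwa [tsum_geometric_two'] at this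
      have h8 : ∫ y, ‖R y‖ ∂haarAddCircle ≤ 1 / (2 * (k : ℝ) + 1) := hRle.trans h7
      rw [le_div_iff₀ hk0] at h8
      linarith
    have hsplit : fourierSum k f x = fourierSum k (state (j + 1)).1 x + fourierSum k R x := by
      rw [hfeq]
      exact fourierSum_add k (hGint (j + 1)) hRint x
    have hRsmall : ‖fourierSum k R x‖ ≤ 1 := (norm_fourierSum_le k R x).trans htail
    have h9 : ‖fourierSum k (state (j + 1)).1 x‖ ≤ ‖fourierSum k f x‖ + ‖fourierSum k R x‖ := by
      have : fourierSum k (state (j + 1)).1 x = fourierSum k f x - fourierSum k R x := by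
        rw [hsplit]
        ring
      rw [this]
      exact norm_sub_le _ _
    have h10 : ((j + 1 : ℕ) : ℝ) = (j : ℝ) + 1 := by push_cast; ring
    rw [h10] at hkx
    linarith
  -- the intersection of the sets `W j` has positive measure
  set W : ℕ → Set (AddCircle T) := fun j => {x | ∃ k : ℕ, (j : ℝ) ≤ ‖fourierSum k f x‖}
    with hWdef
  have hWmeas : ∀ j, MeasurableSet (W j) := fun j => measurableSet_exists_le _ f
  have hWanti : Antitone W := by
    intro i j hij x hx
    obtain ⟨k, hk⟩ := hx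
    have : (i : ℝ) ≤ (j : ℝ) := by exact_mod_cast hij
    exact ⟨k, this.trans hk⟩
  have htend := tendsto_measure_iInter_atTop (μ := (haarAddCircle : Measure (AddCircle T)))
    (fun j => (hWmeas j).nullMeasurableSet) hWanti ⟨0, measure_ne_top _ _⟩
  have hge : ENNReal.ofReal (1 / 4) ≤ (haarAddCircle : Measure (AddCircle T)) (⋂ j, W j) := by
    refine ge_of_tendsto' htend fun j => ?_
    have h1 := hW j
    simp only [Function.comp_apply]
    rw [← ofReal_measureReal (measure_ne_top _ _)]
    exact ENNReal.ofReal_le_ofReal h1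
  have hnull : (haarAddCircle : Measure (AddCircle T)) (⋂ j, W j) = 0 := by
    have hae := hB f hfL
    rw [ae_iff] at hae
    refine measure_mono_null ?_ hae
    intro x hx
    simp only [Set.mem_iInter] at hx
    simp only [Set.mem_ofPred_eq]
    rintro ⟨C, hCx⟩
    obtain ⟨j, hj⟩ := exists_nat_gt C
    obtain ⟨k, hk⟩ := hx j
    have := hCx k
    linarith
  rw [hnull] at hge
  have : (0 : ℝ) < 1 / 4 := by norm_num
  exact absurd hge (not_le.mpr (ENNReal.ofReal_pos.mpr this))

end Vale.Agent.Lib.P091
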