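import Vale.Agent.Lib.P091.WeakToConv

/-!
# Signed sums of translates

Helper file for problem P091.
-/

namespace Vale.Agent.Lib.P091

open MeasureTheory AddCircle Filter Topology
open scoped ENNReal

variable {T : ℝ} [hT : Fact (0 < T)]

/-- The sign `±1` attached to a Boolean. -/
def sgn (b : Bool) : ℂ := if b then 1 else -1

lemma norm_sgn (b : Bool) : ‖sgn b‖ = 1 := by
  cases b <;> simp [sgn]

lemma sgn_sub_sgn_not (b : Bool) : ‖sgn b - sgn (!b)‖ = 2 := by
  cases b <;> simp [sgn] <;> norm_num

/-- The translate `x ↦ g (x + t)`. -/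
def shift (g : AddCircle T → ℂ) (t : AddCircle T) : AddCircle T → ℂ := fun x => g (x + t)

omit hT in
lemma shift_eq (g : AddCircle T → ℂ) (t : AddCircle T) : shift g t = fun x => g (x - -t) := by
  funext x
  simp [shift]

lemma memLlogL_shift {g : AddCircle T → ℂ} (hg : MemLlogL g) (t : AddCircle T) :
    MemLlogL (shift g t) := by
  rw [shift_eq]
  exact hg.translate (-t)

lemma fourierSum_shift (k : ℕ) (g : AddCircle T → ℂ) (t x : AddCircle T) :
    fourierSum k (shift g t) x = fourierSum k g (x + t) := by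
  rw [shift_eq, fourierSum_translate, sub_neg_eq_add]

lemma integral_norm_shift (g : AddCircle T → ℂ) (t : AddCircle T) :
    ∫ x, ‖shift g t x‖ ∂haarAddCircle = ∫ x, ‖g x‖ ∂haarAddCircle := by
  simp only [shift]
  exact integral_add_right_eq_self (μ := (haarAddCircle : Measure (AddCircle T)))
    (fun x => ‖g x‖) t

lemma integral_phi_shift (g : AddCircle T → ℂ) (t : AddCircle T) (κ : ℝ) :
    ∫ x, phi (‖shift g t x‖ / κ) ∂haarAddCircle = ∫ x, phi (‖g x‖ / κ) ∂haarAddCircle := by
  simp only [shift]
  exact integral_add_right_eq_self (μ := (haarAddCircle : Measure (AddCircle T)))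
    (fun x => phi (‖g x‖ / κ)) t

/-- The signed sum `a • ∑ i, ± (translate of g by the i-th element of l)`. -/
noncomputable def signedSum (a : ℂ) (l : List (AddCircle T)) (g : AddCircle T → ℂ)
    (ε : Fin l.length → Bool) : AddCircle T → ℂ :=
  a • ∑ i : Fin l.length, sgn (ε i) • shift g (l.get i)

lemma memLlogL_zero : MemLlogL (0 : AddCircle T → ℂ) :=
  memLlogL_of_bound aestronglyMeasurable_zero 0 (fun x => by simp)

lemma memLlogL_finset_sum {ι : Type*} (s : Finset ι) (f : ι → AddCircle T → ℂ)
    (hf : ∀ i ∈ s, MemLlogL (f i)) : MemLlogL (∑ i ∈ s, f i) := by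
  classical
  induction s using Finset.induction_on with
  | empty => simpa using memLlogL_zero (T := T)
  | insert a s ha ih =>
    rw [Finset.sum_insert ha]
    exact (hf a (Finset.mem_insert_self a s)).add
      (ih fun i hi => hf i (Finset.mem_insert_of_mem hi))

lemma memLlogL_signedSum (a : ℂ) (l : List (AddCircle T)) {g : AddCircle T → ℂ}
    (hg : MemLlogL g) (ε : Fin l.length → Bool) : MemLlogL (signedSum a l g ε) := by
  unfold signedSum
  exact (memLlogL_finset_sum _ _ fun i _ => (memLlogL_shift hg _).const_smul _).const_smul a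

omit hT in
lemma signedSum_apply (a : ℂ) (l : List (AddCircle T)) (g : AddCircle T → ℂ)
    (ε : Fin l.length → Bool) (x : AddCircle T) :
    signedSum a l g ε x = a * ∑ i : Fin l.length, sgn (ε i) * g (x + l.get i) := by
  simp [signedSum, shift, Finset.sum_apply]

lemma fourierSum_signedSum (k : ℕ) (a : ℂ) (l : List (AddCircle T)) {g : AddCircle T → ℂ}
    (hg : MemLlogL g) (ε : Fin l.length → Bool) (x : AddCircle T) :
    fourierSum k (signedSum a l g ε) x =
      a * ∑ i : Fin l.length, sgn (ε i) * fourierSum k g (x + l.get i) := by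
  unfold signedSum
  rw [fourierSum_smul, fourierSum_finset_sum]
  · congr 1
    refine Finset.sum_congr rfl fun i _ => ?_
    rw [fourierSum_smul, fourierSum_shift]
  · intro i _
    exact ((memLlogL_shift hg _).const_smul _).integrable

omit hT in
lemma norm_signedSum_le (a : ℂ) (l : List (AddCircle T)) (g : AddCircle T → ℂ)
    (ε : Fin l.length → Bool) (x : AddCircle T) :
    ‖signedSum a l g ε x‖ ≤ ‖a‖ * ∑ i : Fin l.length, ‖shift g (l.get i) x‖ := by
  rw [signedSum_apply, norm_mul]
  refine mul_le_mul_of_nonneg_left ?_ (norm_nonneg a)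
  refine (norm_sum_le _ _).trans (le_of_eq ?_)
  refine Finset.sum_congr rfl fun i _ => ?_
  rw [norm_mul, norm_sgn, one_mul]
  rfl

lemma integral_norm_signedSum_le (a : ℂ) (l : List (AddCircle T)) {g : AddCircle T → ℂ}
    (hg : MemLlogL g) (ε : Fin l.length → Bool) :
    ∫ x, ‖signedSum a l g ε x‖ ∂haarAddCircle ≤
      ‖a‖ * l.length * ∫ x, ‖g x‖ ∂haarAddCircle := by
  have hint : ∀ i : Fin l.length, Integrable (fun x => ‖shift g (l.get i) x‖) haarAddCircle :=
    fun i => (memLlogL_shift hg _).integrable.norm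
  have h1 : ∫ x, ‖signedSum a l g ε x‖ ∂haarAddCircle ≤
      ∫ x, ‖a‖ * ∑ i : Fin l.length, ‖shift g (l.get i) x‖ ∂haarAddCircle := by
    refine integral_mono_of_nonneg (ae_of_all _ fun x => norm_nonneg _)
      ((integrable_finsetSum _ fun i _ => hint i).const_mul _)
      (ae_of_all _ fun x => norm_signedSum_le a l g ε x)
  rw [integral_const_mul, integral_finsetSum _ fun i _ => hint i] at h1
  simp only [integral_norm_shift, Finset.sum_const, Finset.card_univ, Fintype.card_fin,
    nsmul_eq_mul] at h1
  linarith [h1]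

/-- Modular estimate for a signed sum of `n` translates: if `c ‖a‖ n ≤ 1/κ` then
`∫ Φ(c |signedSum|) ≤ ∫ Φ(|g|/κ)`. -/
lemma integral_phi_signedSum_le (a : ℂ) (l : List (AddCircle T)) (hl : 1 ≤ l.length)
    {g : AddCircle T → ℂ} (hg : MemLlogL g) (ε : Fin l.length → Bool) {c κ : ℝ} (hc : 0 ≤ c)
    (hκ : 0 < κ) (hcκ : c * ‖a‖ * l.length ≤ 1 / κ) :
    ∫ x, phi (c * ‖signedSum a l g ε x‖) ∂haarAddCircle ≤
      ∫ x, phi (‖g x‖ / κ) ∂haarAddCircle := by
  have hn : (0 : ℝ) < l.length := by exact_mod_cast hl
  have hint : ∀ i : Fin l.length,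
      Integrable (fun x => phi (‖shift g (l.get i) x‖ / κ)) haarAddCircle :=
    fun i => (memLlogL_shift hg _).integrable_phi_div hκ
  have hpt : ∀ x, phi (c * ‖signedSum a l g ε x‖) ≤
      ∑ i : Fin l.length, (1 / (l.length : ℝ)) * phi (‖shift g (l.get i) x‖ / κ) := by
    intro x
    have h1 : c * ‖signedSum a l g ε x‖ ≤
        ∑ i : Fin l.length, (1 / (l.length : ℝ)) *
          (c * ‖a‖ * l.length * ‖shift g (l.get i) x‖) := by
      have h2 := mul_le_mul_of_nonneg_left (norm_signedSum_le a l g ε x) hc
      refine h2.trans (le_of_eq ?_)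
      rw [Finset.mul_sum, Finset.mul_sum]
      refine Finset.sum_congr rfl fun i _ => ?_
      field_simp
    have h3 := phi_sum_le (Finset.univ : Finset (Fin l.length))
      (fun _ => 1 / (l.length : ℝ)) (fun i => c * ‖a‖ * l.length * ‖shift g (l.get i) x‖)
      (fun i _ => by positivity) (fun i _ => by positivity) (by
        rw [Finset.sum_const, Finset.card_univ, Fintype.card_fin, nsmul_eq_mul]
        field_simp
        exact le_refl _)
    refine (phi_mono (mul_nonneg hc (norm_nonneg _)) h1).trans (h3.trans ?_)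
    refine Finset.sum_le_sum fun i _ => ?_
    refine mul_le_mul_of_nonneg_left ?_ (by positivity)
    refine phi_mono (by positivity) ?_
    rw [div_eq_inv_mul, ← one_div]
    exact mul_le_mul_of_nonneg_right hcκ (norm_nonneg _)
  have h4 : ∫ x, phi (c * ‖signedSum a l g ε x‖) ∂haarAddCircle ≤
      ∫ x, ∑ i : Fin l.length, (1 / (l.length : ℝ)) * phi (‖shift g (l.get i) x‖ / κ)
        ∂haarAddCircle :=
    integral_mono_of_nonneg
      (ae_of_all _ fun x => phi_nonneg (mul_nonneg hc (norm_nonneg _)))
      (integrable_finsetSum _ fun i _ => (hint i).const_mul _) (ae_of_all _ hpt)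
  rw [integral_finsetSum _ fun i _ => (hint i).const_mul _] at h4
  simp only [integral_const_mul, integral_phi_shift, Finset.sum_const, Finset.card_univ,
    Fintype.card_fin, nsmul_eq_mul] at h4
  have h5 : (l.length : ℝ) * (1 / (l.length : ℝ) * ∫ x, phi (‖g x‖ / κ) ∂haarAddCircle) =
      ∫ x, phi (‖g x‖ / κ) ∂haarAddCircle := by
    field_simp
  rw [h5] at h4
  exact h4

/-- Flipping one sign changes the Fourier sum by `2 a S_k g (x + t_i)` in norm. -/
lemma norm_fourierSum_flip (k : ℕ) (a : ℂ) (l : List (AddCircle T)) {g G : AddCircle T → ℂ}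
    (hg : MemLlogL g) (hG : Integrable G haarAddCircle) (ε : Fin l.length → Bool)
    (i : Fin l.length) (x : AddCircle T) :
    ‖fourierSum k (G + signedSum a l g ε) x -
      fourierSum k (G + signedSum a l g (Function.update ε i (!ε i))) x‖ =
      2 * ‖a‖ * ‖fourierSum k g (x + l.get i)‖ := by
  classical
  rw [fourierSum_add k hG (memLlogL_signedSum a l hg ε).integrable,
    fourierSum_add k hG (memLlogL_signedSum a l hg _).integrable,
    fourierSum_signedSum k a l hg, fourierSum_signedSum k a l hg]
  have h1 : ∑ j : Fin l.length, sgn (ε j) * fourierSum k g (x + l.get j) -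
      ∑ j : Fin l.length, sgn (Function.update ε i (!ε i) j) * fourierSum k g (x + l.get j) =
      (sgn (ε i) - sgn (!ε i)) * fourierSum k g (x + l.get i) := by
    rw [← Finset.sum_sub_distrib]
    rw [Finset.sum_eq_single i]
    · rw [Function.update_self]
      ring
    · intro j _ hj
      rw [Function.update_of_ne hj]
      ring
    · intro h
      exact absurd (Finset.mem_univ i) h
  have h2 : fourierSum k G x + a * ∑ j : Fin l.length, sgn (ε j) * fourierSum k g (x + l.get j) -
      (fourierSum k G x + a * ∑ j : Fin l.length,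
        sgn (Function.update ε i (!ε i) j) * fourierSum k g (x + l.get j)) =
      a * ((sgn (ε i) - sgn (!ε i)) * fourierSum k g (x + l.get i)) := by
    rw [← h1]
    ring
  rw [h2, norm_mul, norm_mul, sgn_sub_sgn_not]
  ring

end Vale.Agent.Lib.P091
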