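import Mathlib

/-!
# Averaging over signs

Helper file for problem P091: a measure-theoretic pigeonhole lemma for families of sets
indexed by sign patterns.
-/

namespace Vale.Agent.Lib.P091

open MeasureTheory

/-- If `σ` is an involution and every `a` satisfies `P a ∨ P (σ a)`, then at least half of the
elements satisfy `P`. -/
lemma card_le_two_mul_card_filter {α : Type*} [Fintype α] [DecidableEq α] (σ : α → α)
    (hσ : Function.Involutive σ) (P : α → Prop) [DecidablePred P] (h : ∀ a, P a ∨ P (σ a)) :
    Fintype.card α ≤ 2 * (Finset.univ.filter P).card := by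
  have h1 : (Finset.univ : Finset α) ⊆
      Finset.univ.filter P ∪ (Finset.univ.filter P).image σ := by
    intro a _
    rcases h a with ha | ha
    · exact Finset.mem_union_left _ (by simpa using ha)
    · refine Finset.mem_union_right _ (Finset.mem_image.mpr ⟨σ a, by simpa using ha, hσ a⟩)
  have h2 := Finset.card_le_card h1
  have h3 := Finset.card_union_le (Finset.univ.filter P) ((Finset.univ.filter P).image σ)
  have h4 : ((Finset.univ.filter P).image σ).card ≤ (Finset.univ.filter P).card :=
    Finset.card_image_le
  rw [Finset.card_univ] at h2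
  omega

/-- Pigeonhole over sign patterns: if every point of `F` lies, for some coordinate `i`, in
`B ε` or in `B (ε with the i-th sign flipped)` for every sign pattern `ε`, then some `B ε`
has at least half the measure of `F`. -/
lemma exists_signs_measure_ge {X : Type*} [MeasurableSpace X] (μ : Measure X)
    [IsProbabilityMeasure μ] {n : ℕ} (B : (Fin n → Bool) → Set X)
    (hB : ∀ ε, MeasurableSet (B ε)) (F : Set X) (hF : MeasurableSet F)
    (h : ∀ x ∈ F, ∃ i : Fin n, ∀ ε : Fin n → Bool,
      x ∈ B ε ∨ x ∈ B (Function.update ε i (!ε i))) :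
    ∃ ε, μ.real F / 2 ≤ μ.real (B ε) := by
  classical
  by_contra hcon
  push Not at hcon
  have hcard : Fintype.card (Fin n → Bool) = 2 ^ n := by simp
  have hpt : ∀ x, F.indicator (fun _ => (2 : ℝ) ^ n) x ≤
      ∑ ε : Fin n → Bool, (B ε).indicator (fun _ => (2 : ℝ)) x := by
    intro x
    by_cases hx : x ∈ F
    · obtain ⟨i, hi⟩ := h x hx
      have hinv : Function.Involutive (fun ε : Fin n → Bool => Function.update ε i (!ε i)) := by
        intro ε
        funext k
        by_cases hk : k = i
        · subst hk
          simp
        · simp [Function.update_of_ne hk]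
      have hc := card_le_two_mul_card_filter _ hinv (fun ε => x ∈ B ε) hi
      rw [hcard] at hc
      have hsum : ∑ ε : Fin n → Bool, (B ε).indicator (fun _ => (2 : ℝ)) x =
          2 * ((Finset.univ.filter (fun ε : Fin n → Bool => x ∈ B ε)).card : ℝ) := by
        simp only [Set.indicator_apply]
        rw [← Finset.sum_filter, Finset.sum_const, nsmul_eq_mul]
        ring
      rw [Set.indicator_of_mem hx, hsum]
      exact_mod_cast hc
    · rw [Set.indicator_of_notMem hx]
      exact Finset.sum_nonneg fun ε _ => Set.indicator_nonneg (fun _ _ => by norm_num) x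
  have hint1 : ∫ x, F.indicator (fun _ => (2 : ℝ) ^ n) x ∂μ = (2 : ℝ) ^ n * μ.real F := by
    rw [integral_indicator_const _ hF, smul_eq_mul, mul_comm]
  have hint2 : ∫ x, ∑ ε : Fin n → Bool, (B ε).indicator (fun _ => (2 : ℝ)) x ∂μ =
      ∑ ε : Fin n → Bool, 2 * μ.real (B ε) := by
    rw [integral_finsetSum _ fun ε _ => (integrable_const _).indicator (hB ε)]
    refine Finset.sum_congr rfl fun ε _ => ?_
    rw [integral_indicator_const _ (hB ε), smul_eq_mul, mul_comm]
  have hmono : ∫ x, F.indicator (fun _ => (2 : ℝ) ^ n) x ∂μ ≤
      ∫ x, ∑ ε : Fin n → Bool, (B ε).indicator (fun _ => (2 : ℝ)) x ∂μ :=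
    integral_mono ((integrable_const _).indicator hF)
      (integrable_finsetSum _ fun ε _ => (integrable_const _).indicator (hB ε)) hpt
  rw [hint1, hint2] at hmono
  have hlt : ∑ ε : Fin n → Bool, 2 * μ.real (B ε) < ∑ _ε : Fin n → Bool, μ.real F := by
    refine Finset.sum_lt_sum_of_nonempty Finset.univ_nonempty fun ε _ => ?_
    have := hcon ε
    linarith
  rw [Finset.sum_const, Finset.card_univ, hcard, nsmul_eq_mul] at hlt
  push_cast at hlt
  linarith

end Vale.Agent.Lib.P091
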