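import Vale.Agent.Lib.P091.SignedSum
import Vale.Agent.Lib.P091.Cover
import Vale.Agent.Lib.P091.Signs

/-!
# The inductive step of the gliding hump construction

Helper file for problem P091.
-/

namespace Vale.Agent.Lib.P091

open MeasureTheory AddCircle Filter Topology
open scoped ENNReal

variable {T : ℝ} [hT : Fact (0 < T)]

lemma measurableSet_exists_le_lt (N : ℕ) (lam : ℝ) (g : AddCircle T → ℂ) :
    MeasurableSet {x : AddCircle T | ∃ k ≤ N, lam < ‖fourierSum k g x‖} := by
  have : {x : AddCircle T | ∃ k ≤ N, lam < ‖fourierSum k g x‖} =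
      ⋃ k ∈ Finset.range (N + 1), {x : AddCircle T | lam < ‖fourierSum k g x‖} := by
    ext x
    simp
  rw [this]
  exact Finset.measurableSet_biUnion _ fun k _ =>
    measurableSet_lt measurable_const (continuous_fourierSum k g).norm.measurable

lemma measurableSet_exists_le_le (N : ℕ) (c : ℝ) (g : AddCircle T → ℂ) :
    MeasurableSet {x : AddCircle T | ∃ k ≤ N, c ≤ ‖fourierSum k g x‖} := by
  have : {x : AddCircle T | ∃ k ≤ N, c ≤ ‖fourierSum k g x‖} =
      ⋃ k ∈ Finset.range (N + 1), {x : AddCircle T | c ≤ ‖fourierSum k g x‖} := by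
    ext x
    simp
  rw [this]
  exact Finset.measurableSet_biUnion _ fun k _ =>
    measurableSet_le measurable_const (continuous_fourierSum k g).norm.measurable

/-- Truncating the maximal function to finitely many Fourier sums loses arbitrarily little
measure. -/
lemma exists_trunc_measure_gt {g : AddCircle T → ℂ} {lam c : ℝ}
    (h : c < (haarAddCircle : Measure (AddCircle T)).real
      {x | ∃ N, lam < ‖fourierSum N g x‖}) :
    ∃ N : ℕ, c < (haarAddCircle : Measure (AddCircle T)).real
      {x | ∃ k ≤ N, lam < ‖fourierSum k g x‖} := by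
  set s : ℕ → Set (AddCircle T) := fun N => {x | ∃ k ≤ N, lam < ‖fourierSum k g x‖} with hs
  have hmono : Monotone s := by
    intro N N' hNN' x hx
    obtain ⟨k, hk, hlt⟩ := hx
    exact ⟨k, hk.trans hNN', hlt⟩
  have hunion : ⋃ N, s N = {x | ∃ N, lam < ‖fourierSum N g x‖} := by
    ext x
    simp only [hs, Set.mem_iUnion, Set.mem_ofPred_eq]
    constructor
    · rintro ⟨N, k, -, hlt⟩
      exact ⟨k, hlt⟩
    · rintro ⟨k, hlt⟩
      exact ⟨k, k, le_rfl, hlt⟩
  have htend := tendsto_measure_iUnion_atTop (μ := (haarAddCircle : Measure (AddCircle T))) hmono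
  rw [hunion] at htend
  have htend' : Tendsto (fun N => (haarAddCircle : Measure (AddCircle T)).real (s N)) atTop
      (𝓝 ((haarAddCircle : Measure (AddCircle T)).real {x | ∃ N, lam < ‖fourierSum N g x‖})) :=
    (ENNReal.tendsto_toReal (measure_ne_top _ _)).comp htend
  exact (htend'.eventually (lt_mem_nhds h)).exists

/-- **The inductive step.** Assume that no weak type estimate holds. Then for every stage
`j ≥ 1`, every integrable `G` and every `M`, there is a function `H`, small in `L log L` and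
in `L¹`, and a truncation level `N`, such that the truncated maximal function of `G + H`
is at least `j` on a set of measure at least `1/4`. -/
lemma exists_hump
    (hnotC : ∀ K : ℝ, ∃ g : AddCircle T → ℂ, MemLlogL g ∧ ∃ κ : ℝ, 0 < κ ∧
      ∫ x, phi (‖g x‖ / κ) ∂haarAddCircle ≤ 1 ∧ ∃ lam : ℝ, 0 < lam ∧
        K * κ < lam * (haarAddCircle : Measure (AddCircle T)).real
          {x | ∃ N, lam < ‖fourierSum N g x‖})
    (j : ℕ) (hj : 1 ≤ j) (G : AddCircle T → ℂ) (hG : Integrable G haarAddCircle) (M : ℕ) :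
    ∃ (H : AddCircle T → ℂ) (N : ℕ), MemLlogL H ∧
      ∫ x, phi ((2 : ℝ) ^ j * ‖H x‖) ∂haarAddCircle ≤ 1 ∧
      (2 * (M : ℝ) + 1) * ∫ x, ‖H x‖ ∂haarAddCircle ≤ (1 / 2 : ℝ) ^ j ∧
      1 / 4 ≤ (haarAddCircle : Measure (AddCircle T)).real
        {x | ∃ k ≤ N, (j : ℝ) ≤ ‖fourierSum k (G + H) x‖} := by
  classical
  have hj0 : (0 : ℝ) < j := by exact_mod_cast hj
  set K : ℝ := 4 * j * 2 ^ j * (2 * M + 1) with hKdef
  have hKpos : 0 < K := by positivity
  obtain ⟨g, hg, κ, hκ, hmod, lam, hlam, hbig⟩ := hnotC K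
  have hbig' : K * κ / lam < (haarAddCircle : Measure (AddCircle T)).real
      {x | ∃ N, lam < ‖fourierSum N g x‖} := by
    rw [div_lt_iff₀ hlam]
    linarith
  obtain ⟨N, hN⟩ := exists_trunc_measure_gt hbig'
  set E : Set (AddCircle T) := {x | ∃ k ≤ N, lam < ‖fourierSum k g x‖} with hEdef
  have hEmeas : MeasurableSet E := measurableSet_exists_le_lt N lam g
  set m : ℝ := (haarAddCircle : Measure (AddCircle T)).real E with hmdef
  have hmpos : 0 < m := lt_of_le_of_lt (by positivity) hN
  obtain ⟨l, hl1, hl2, hF⟩ := exists_translates_cover_half hEmeas hmpos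
  have hn0 : (0 : ℝ) < l.length := by exact_mod_cast hl1
  -- the key numerical inequality
  have hstar : (l.length : ℝ) * (K * κ) ≤ 2 * lam := by
    have h1 : (l.length : ℝ) * m ≤ 2 := by
      rw [le_div_iff₀ hmpos] at hl2
      exact hl2
    have h2 : K * κ < lam * m := by
      rw [div_lt_iff₀ hlam] at hN
      linarith
    nlinarith
  set a : ℂ := ((j / lam : ℝ) : ℂ) with hadef
  have hanorm : ‖a‖ = j / lam := by
    rw [hadef, Complex.norm_real, Real.norm_of_nonneg (by positivity)]
  set B : (Fin l.length → Bool) → Set (AddCircle T) :=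
    fun ε => {x | ∃ k ≤ N, (j : ℝ) ≤ ‖fourierSum k (G + signedSum a l g ε) x‖} with hBdef
  have hB : ∀ ε, MeasurableSet (B ε) := fun ε => measurableSet_exists_le_le N j _
  set F : Set (AddCircle T) := {x | ∃ t ∈ l, x + t ∈ E} with hFdef
  have hFmeas : MeasurableSet F := by
    have : F = {x : AddCircle T | ∀ t ∈ l, x + t ∉ E}ᶜ := by
      ext x
      simp [hFdef]
    rw [this]
    exact (measurableSet_uncovered hEmeas l).compl
  have hflip : ∀ x ∈ F, ∃ i : Fin l.length, ∀ ε : Fin l.length → Bool,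
      x ∈ B ε ∨ x ∈ B (Function.update ε i (!ε i)) := by
    intro x hx
    obtain ⟨t, ht, k, hk, hlt⟩ := hx
    obtain ⟨i, rfl⟩ := List.mem_iff_get.mp ht
    refine ⟨i, fun ε => ?_⟩
    by_contra hcon
    rw [not_or] at hcon
    obtain ⟨h1, h2⟩ := hcon
    simp only [hBdef, Set.mem_ofPred_eq, not_exists, not_and, not_le] at h1 h2
    have h3 := norm_fourierSum_flip k a l hg hG ε i x
    have h4 : ‖fourierSum k (G + signedSum a l g ε) x -
        fourierSum k (G + signedSum a l g (Function.update ε i (!ε i))) x‖ < 2 * j := by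
      calc _ ≤ ‖fourierSum k (G + signedSum a l g ε) x‖ +
            ‖fourierSum k (G + signedSum a l g (Function.update ε i (!ε i))) x‖ :=
          norm_sub_le _ _
        _ < j + j := add_lt_add (h1 k hk) (h2 k hk)
        _ = 2 * j := by ring
    rw [h3, hanorm] at h4
    have h5 : 2 * (j / lam) * lam < 2 * (j / lam) * ‖fourierSum k g (x + l.get i)‖ :=
      mul_lt_mul_of_pos_left hlt (by positivity)
    have h6 : 2 * (j / lam) * lam = 2 * j := by field_simp
    linarith
  obtain ⟨ε, hε⟩ := exists_signs_measure_ge (haarAddCircle : Measure (AddCircle T)) B hB F hFmeas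
    hflip
  refine ⟨signedSum a l g ε, N, memLlogL_signedSum a l hg ε, ?_, ?_, ?_⟩
  · refine (integral_phi_signedSum_le a l hl1 hg ε (c := (2 : ℝ) ^ j) (by positivity) hκ ?_).trans
      hmod
    rw [hanorm, le_div_iff₀ hκ]
    have h1 : (2 : ℝ) ^ j * (j / lam) * l.length * κ = (2 : ℝ) ^ j * j * l.length * κ / lam := by
      field_simp
    rw [h1, div_le_one hlam]
    have h2 : (1 : ℝ) ≤ 2 * M + 1 := by
      have : (0 : ℝ) ≤ M := Nat.cast_nonneg M
      linarith
    have h3 : (l.length : ℝ) * (4 * j * 2 ^ j * κ) ≤ (l.length : ℝ) * (K * κ) := by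
      refine mul_le_mul_of_nonneg_left ?_ hn0.le
      rw [hKdef]
      have : 0 ≤ 4 * (j : ℝ) * 2 ^ j * κ := by positivity
      nlinarith
    have h4 : (0 : ℝ) ≤ (2 : ℝ) ^ j * j * l.length * κ := by positivity
    nlinarith
  · have h1 := integral_norm_signedSum_le a l hg ε
    have h2 := integral_norm_le_of_modular hg hκ hmod
    rw [hanorm] at h1
    have h3 : ∫ x, ‖signedSum a l g ε x‖ ∂haarAddCircle ≤ j / lam * l.length * (2 * κ) :=
      h1.trans (mul_le_mul_of_nonneg_left h2 (by positivity))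
    have hM : (0 : ℝ) < 2 * M + 1 := by positivity
    have h4 : (2 * (M : ℝ) + 1) * ∫ x, ‖signedSum a l g ε x‖ ∂haarAddCircle ≤
        (2 * (M : ℝ) + 1) * (j / lam * l.length * (2 * κ)) :=
      mul_le_mul_of_nonneg_left h3 hM.le
    refine h4.trans ?_
    have h5 : (2 * (M : ℝ) + 1) * (j / lam * l.length * (2 * κ)) =
        (l.length : ℝ) * (K * κ) / (2 * lam * 2 ^ j) := by
      rw [hKdef]
      field_simp
      ring
    rw [h5, one_div, inv_pow, div_le_iff₀ (by positivity)]
    have h6 : ((2 : ℝ) ^ j)⁻¹ * (2 * lam * 2 ^ j) = 2 * lam := by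
      field_simp
    rw [h6]
    exact hstar
  · have h1 : (1 : ℝ) / 4 ≤ (haarAddCircle : Measure (AddCircle T)).real F / 2 := by linarith
    exact h1.trans hε

end Vale.Agent.Lib.P091
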